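import Vale.Agent.P170.UB2.MainW

/-!
Task M: the upper bound theorem for `k = 3` with a finitely supported order parameter.
-/

namespace Vale.Agent.P170

open Finset Filter Topology

theorem sum_prod2 {T : Type} [Fintype T] (f : T → ℝ) :
    ∑ e : T × T, f e.1 * f e.2 = (∑ t, f t) ^ 2 := by
  rw [Fintype.sum_prod_type, sq, Finset.sum_mul_sum]

theorem sum_prod3 {T : Type} [Fintype T] (f : T → ℝ) :
    ∑ e : T × T × T, f e.1 * f e.2.1 * f e.2.2 = (∑ t, f t) ^ 3 := by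
  rw [Fintype.sum_prod_type]
  have h : ∀ x : T, ∑ y : T × T, f x * f y.1 * f y.2 = f x * (∑ t, f t) ^ 2 := by
    intro x
    rw [← sum_prod2, Finset.mul_sum]
    apply Finset.sum_congr rfl
    intro y _
    ring
  simp only [h]
  rw [← Finset.sum_mul]
  ring

theorem ub_atoms3 {T : Type} [Fintype T] [DecidableEq T] (w u : T → ℝ) (hw : ∀ t, 0 ≤ w t)
    (hws : ∑ t, w t = 1) (hu0 : ∀ t, 0 ≤ u t) (umax : ℝ) (hu1 : ∀ t, u t ≤ umax)
    (humax : umax < 1) (c₀ : ℝ) (hc₀ : 0 < c₀) (q P : ℕ) (hq : 1 ≤ q) (aLow : ℕ → ℝ) (R₀ : ℕ)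
    (ha0 : ∀ p < P, 0 ≤ aLow p)
    (ha : ∀ p < P, ∀ R, R₀ ≤ R →
      aLow p ≤ boxMom (fun e : T × T => 3 * c₀ / 2 * (w e.1 * w e.2))
        (fun e => 1 - u e.1 * u e.2) R (p + 1))
    (B dl : ℝ) (hB0 : 0 < B) (hdl : 0 < dl)
    (hB : Real.exp (3 * c₀) - ∑ p ∈ range P, bc (1 / (q : ℝ)) p * aLow p ^ 2
      ≤ B * Real.exp (3 * c₀))
    (hlog : Real.log B + (1 + dl) * (2 * c₀ / q) *
      ∑ e : T × T × T, w e.1 * w e.2.1 * w e.2.2 *
        (-Real.log (1 - u e.1 * u e.2.1 * u e.2.2)) < 0) :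
    ∀ c : ℝ, c₀ ≤ c → Tendsto (fun n : ℕ => satProb 3 n ⌊c * (n : ℝ)⌋₊) atTop (𝓝 0) := by
  have hT : Nonempty T := by
    by_contra hne
    rw [not_nonempty_iff] at hne
    simp at hws
  obtain ⟨t0⟩ := hT
  have humax0 : 0 ≤ umax := (hu0 t0).trans (hu1 t0)
  have hu1' : ∀ t, u t ≤ 1 := fun t => (hu1 t).trans humax.le
  have e3 : ((2 : ℕ) : ℝ) + 1 = 3 := by norm_num
  have e2 : ((2 : ℕ) : ℝ) = 2 := by norm_num
  have key := ub_main_w 2 (by norm_num) c₀ hc₀ (fun e : T × T => w e.1 * w e.2)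
    (fun e => u e.1 * u e.2)
    (fun e : T × T × T => w e.1 * w e.2.1 * w e.2.2) (fun e => u e.1 * u e.2.1 * u e.2.2)
    (fun p => ∑ t, w t * u t ^ p)
    (fun p => Finset.sum_nonneg (fun t _ => mul_nonneg (hw t) (pow_nonneg (hu0 t) p)))
    (by
      intro p
      rw [← sum_prod2]
      apply Finset.sum_congr rfl
      intro e _
      rw [mul_pow]
      ring)
    (by
      intro p
      rw [← sum_prod3]
      apply Finset.sum_congr rfl
      intro e _
      rw [mul_pow, mul_pow]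
      ring)
    (by rw [sum_prod2, hws]; norm_num)
    (by rw [sum_prod3, hws]; norm_num)
    (fun e => mul_nonneg (hw _) (hw _))
    (fun e => mul_nonneg (mul_nonneg (hw _) (hw _)) (hw _))
    (fun e => mul_nonneg (hu0 _) (hu0 _))
    (fun e => mul_le_one₀ (hu1' _) (hu0 _) (hu1' _))
    (1 - umax ^ 3)
    (by
      have : umax ^ 3 < 1 := pow_lt_one₀ humax0 humax (by norm_num)
      linarith)
    (fun e => mul_nonneg (mul_nonneg (hu0 _) (hu0 _)) (hu0 _))
    (by
      intro e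
      have h1 : u e.1 * u e.2.1 ≤ umax * umax :=
        mul_le_mul (hu1 _) (hu1 _) (hu0 _) humax0
      have h2 : u e.1 * u e.2.1 * u e.2.2 ≤ umax * umax * umax :=
        mul_le_mul h1 (hu1 _) (hu0 _) (mul_nonneg humax0 humax0)
      have h3 : umax ^ 3 = umax * umax * umax := by ring
      linarith)
    q P hq aLow R₀ ha0
    (by simpa only [e3] using ha)
    B dl hB0 hdl
    (by simpa only [e3] using hB)
    (by simpa only [e2] using hlog)
  exact key

end Vale.Agent.P170
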