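import Vale.Agent.P170.UB.Basic

/-!
Definitions for the interpolation upper bound with several field strengths
(finitely supported distribution of the order parameter).
-/

namespace Vale.Agent.P170

open Finset

/-- weighted averaging over which counter is incremented -/
noncomputable def cavgw {J : Type} [Fintype J] [DecidableEq J] (π : J → ℝ)
    (F : (J → ℕ) → ℝ) : (J → ℕ) → ℝ :=
  fun a => ∑ j : J, π j * F (a + Pi.single j 1)

variable {Ω : Type}

/-- outer average over a random field (random literal, random strength) -/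
noncomputable def THw {L E : Type} [Fintype L] [Fintype E] (ω η : E → ℝ) (hl : L → Set Ω)
    (Ψ : (Set Ω → ℝ) → Set Ω → ℝ) : (Set Ω → ℝ) → Set Ω → ℝ :=
  fun φ X => ∑ e : E, ω e * ((∑ l : L, Ψ (fld (η e) (hl l) φ) X) / (Fintype.card L : ℝ))

/-- outer average over a random rescaling of the inner state -/
noncomputable def TDw {E' : Type} [Fintype E'] (ω' θ' : E' → ℝ)
    (Ψ : (Set Ω → ℝ) → Set Ω → ℝ) : (Set Ω → ℝ) → Set Ω → ℝ :=
  fun φ X => ∑ e : E', ω' e * Ψ (fun Y => θ' e * φ Y) X

/-- `s + t - s t` -/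
noncomputable def Wg (s t : ℝ) : ℝ := s + t - s * t

/-- unnormalised multi-type Poisson weight -/
noncomputable def pw {E : Type} [Fintype E] (ν : E → ℝ) (a : E → ℕ) : ℝ :=
  ∏ e, ν e ^ (a e) / ((a e).factorial : ℝ)

/-- box sum: unnormalised multi-type Poisson moment of `(1 - ∏ x_e ^ a_e) ^ p` -/
noncomputable def boxMom {E : Type} [Fintype E] [DecidableEq E] (ν x : E → ℝ) (R p : ℕ) : ℝ :=
  ∑ a ∈ Fintype.piFinset (fun _ : E => range (R + 1)), pw ν a * (1 - ∏ e, x e ^ (a e)) ^ p

end Vale.Agent.P170
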