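import Vale.Agent.P170.UB2.Basic
import Vale.Agent.P170.UB.CertTools2

/-!
Closed form of the box moments and their exact rational evaluation.
-/

namespace Vale.Agent.P170

open Finset

/-- the box moment as an alternating sum of products of truncated exponentials -/
theorem boxMom_eq {E : Type} [Fintype E] [DecidableEq E] (ν x : E → ℝ) (R p : ℕ) :
    boxMom ν x R p = ∑ i ∈ range (p + 1), (-1) ^ i * (p.choose i : ℝ) *
      ∏ e, ∑ a ∈ range (R + 1), (ν e * x e ^ i) ^ a / (a.factorial : ℝ) := by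
  unfold boxMom
  have h1 : ∀ a : E → ℕ, (1 - ∏ e, x e ^ (a e)) ^ p =
      ∑ i ∈ range (p + 1), (-1) ^ i * (p.choose i : ℝ) * (∏ e, x e ^ (a e)) ^ i := by
    intro a
    have := add_pow (-(∏ e, x e ^ (a e))) 1 p
    rw [show (1 - ∏ e, x e ^ (a e)) = -(∏ e, x e ^ (a e)) + 1 by ring, this]
    refine Finset.sum_congr rfl fun i _ => ?_
    rw [neg_pow, one_pow]
    ring
  simp_rw [h1, Finset.mul_sum]
  rw [Finset.sum_comm]
  refine Finset.sum_congr rfl fun i _ => ?_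
  rw [Finset.prod_univ_sum, Finset.mul_sum]
  refine Finset.sum_congr rfl fun a _ => ?_
  unfold pw
  rw [← Finset.prod_pow, mul_left_comm, ← Finset.prod_mul_distrib]
  congr 1
  refine Finset.prod_congr rfl fun e _ => ?_
  rw [mul_pow, ← pow_mul, ← pow_mul, mul_comm (a e) i]
  ring

/-- truncated exponential series -/
def SRQ (z : ℚ) (R : ℕ) : ℚ := sumQ (fun a => z ^ a / (a.factorial : ℚ)) (R + 1)

/-- product of three truncated exponentials -/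
def TQ3 (n0 n1 n2 x0 x1 x2 : ℚ) (R i : ℕ) : ℚ :=
  SRQ (n0 * x0 ^ i) R * SRQ (n1 * x1 ^ i) R * SRQ (n2 * x2 ^ i) R

/-- rational box moment for three field types -/
def AQ3 (n0 n1 n2 x0 x1 x2 : ℚ) (R p : ℕ) : ℚ :=
  sumQ (fun i => (-1) ^ i * (p.choose i : ℚ) * TQ3 n0 n1 n2 x0 x1 x2 R i) (p + 1)

theorem SRQ_cast (z : ℚ) (R : ℕ) :
    ((SRQ z R : ℚ) : ℝ) = ∑ a ∈ range (R + 1), (z : ℝ) ^ a / (a.factorial : ℝ) := by
  unfold SRQ
  rw [sumQ_eq]
  push_cast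
  rfl

theorem AQ3_cast (n0 n1 n2 x0 x1 x2 : ℚ) (R p : ℕ) (ν x : Fin 3 → ℝ)
    (hν0 : ν 0 = n0) (hν1 : ν 1 = n1) (hν2 : ν 2 = n2)
    (hx0 : x 0 = x0) (hx1 : x 1 = x1) (hx2 : x 2 = x2) :
    ((AQ3 n0 n1 n2 x0 x1 x2 R p : ℚ) : ℝ) = boxMom ν x R p := by
  rw [boxMom_eq]
  unfold AQ3 TQ3
  rw [sumQ_eq]
  push_cast
  refine Finset.sum_congr rfl fun i _ => ?_
  rw [Fin.prod_univ_three, SRQ_cast, SRQ_cast, SRQ_cast, hν0, hν1, hν2, hx0, hx1, hx2]
  push_cast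
  ring

end Vale.Agent.P170
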