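import Vale.Agent.P170.UB2.BoxEval

/-!
Reduction of the two-atom numerical certificate to exact rational arithmetic.
-/

namespace Vale.Agent.P170

open Finset

/-- rational version of the weighted sum of squares of box moments, three field types -/
def SigQ3 (r n0 n1 n2 x0 x1 x2 : ℚ) (P D : ℕ) : ℚ :=
  sumQ (fun p => bcQ r p * (AQ3 n0 n1 n2 x0 x1 x2 D (p + 1)) ^ 2) P

theorem SigQ3_cast (r n0 n1 n2 x0 x1 x2 : ℚ) (P D : ℕ) (ν x : Fin 3 → ℝ)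
    (hν0 : ν 0 = n0) (hν1 : ν 1 = n1) (hν2 : ν 2 = n2)
    (hx0 : x 0 = x0) (hx1 : x 1 = x1) (hx2 : x 2 = x2) :
    ((SigQ3 r n0 n1 n2 x0 x1 x2 P D : ℚ) : ℝ) =
      ∑ p ∈ range P, bc (r : ℝ) p * (boxMom ν x D (p + 1)) ^ 2 := by
  unfold SigQ3
  rw [sumQ_eq]
  push_cast
  refine Finset.sum_congr rfl fun p _ => ?_
  rw [bcQ_cast, AQ3_cast n0 n1 n2 x0 x1 x2 D (p + 1) ν x hν0 hν1 hν2 hx0 hx1 hx2]

/-- rational lower bound for `log (1 - t)` -/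
def logLow (t : ℚ) (n : ℕ) : ℚ := -LQ t n - t ^ (n + 1) / (1 - t)

theorem logLow_le (t : ℚ) (h0 : 0 ≤ t) (h1 : t < 1) (n : ℕ) :
    ((logLow t n : ℚ) : ℝ) ≤ Real.log (1 - (t : ℝ)) := by
  have hb := abs_le.1 (abs_log_bound t h0 h1 n)
  unfold logLow
  push_cast at hb ⊢
  linarith [hb.1]

/-- rational inequalities imply the real inequalities of the two-atom certificate -/
theorem cert2_core (c₀ : ℚ) (q P D : ℕ) (n0 n1 n2 x0 x1 x2 : ℚ) (t0 t1 t2 t3 w0 w1 w2 w3 : ℚ)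
    (s E : ℚ) (m n k k0 k1 k2 k3 : ℕ) (hn : 0 < n)
    (hs : 0 < s) (hs1 : s < 1) (hE0 : 0 ≤ E) (hc : 0 ≤ c₀)
    (ht0 : 0 ≤ t0 ∧ t0 < 1) (ht1 : 0 ≤ t1 ∧ t1 < 1) (ht2 : 0 ≤ t2 ∧ t2 < 1)
    (ht3 : 0 ≤ t3 ∧ t3 < 1)
    (hw : 0 ≤ w0 ∧ 0 ≤ w1 ∧ 0 ≤ w2 ∧ 0 ≤ w3)
    (hmn : 3 * c₀ = (m : ℚ) / n)
    (hE : (27182818286 / 10000000000 : ℚ) ^ m ≤ E ^ n)
    (h1 : E * s ≤ SigQ3 (1 / q) n0 n1 n2 x0 x1 x2 P D)
    (h2 : -LQ s k + s ^ (k + 1) / (1 - s) <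
      2 * c₀ / q * (w0 * logLow t0 k0 + w1 * logLow t1 k1 + w2 * logLow t2 k2
        + w3 * logLow t3 k3))
    (ν x : Fin 3 → ℝ) (ω' θ' : Fin 4 → ℝ)
    (hν0 : ν 0 = n0) (hν1 : ν 1 = n1) (hν2 : ν 2 = n2)
    (hx0 : x 0 = x0) (hx1 : x 1 = x1) (hx2 : x 2 = x2)
    (hω0 : ω' 0 = w0) (hω1 : ω' 1 = w1) (hω2 : ω' 2 = w2) (hω3 : ω' 3 = w3)
    (hθ0 : θ' 0 = 1 - t0) (hθ1 : θ' 1 = 1 - t1) (hθ2 : θ' 2 = 1 - t2) (hθ3 : θ' 3 = 1 - t3) :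
    ∃ B : ℝ, 0 < B ∧
      Real.exp (3 * (c₀ : ℝ)) - ∑ p ∈ range P, bc (1 / (q : ℝ)) p * (boxMom ν x D (p + 1)) ^ 2
        ≤ B * Real.exp (3 * (c₀ : ℝ)) ∧
      Real.log B < 2 * (c₀ : ℝ) / (q : ℝ) * ∑ e, ω' e * Real.log (θ' e) := by
  have hs' : (0 : ℝ) < s := by exact_mod_cast hs
  have hs1' : (s : ℝ) < 1 := by exact_mod_cast hs1
  refine ⟨1 - (s : ℝ), by linarith, ?_, ?_⟩
  · have hexp : Real.exp (3 * (c₀ : ℝ)) ≤ (E : ℝ) := by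
      have h3 : (3 * (c₀ : ℝ)) = (m : ℝ) / n := by
        have := congrArg (fun t : ℚ => (t : ℝ)) hmn
        push_cast at this ⊢
        exact this
      rw [h3]
      exact exp_le_of_pow m n hn E hE0 hE
    have hS := SigQ3_cast (1 / q) n0 n1 n2 x0 x1 x2 P D ν x hν0 hν1 hν2 hx0 hx1 hx2
    have hq : (((1 / q : ℚ)) : ℝ) = 1 / (q : ℝ) := by push_cast; rfl
    rw [hq] at hS
    rw [← hS]
    have h1' : (E : ℝ) * (s : ℝ) ≤ ((SigQ3 (1 / q) n0 n1 n2 x0 x1 x2 P D : ℚ) : ℝ) := by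
      exact_mod_cast h1
    have h5 := mul_le_mul_of_nonneg_right hexp hs'.le
    generalize Real.exp (3 * (c₀ : ℝ)) = X at h5 ⊢
    generalize ((SigQ3 (1 / q) n0 n1 n2 x0 x1 x2 P D : ℚ) : ℝ) = S at h1' ⊢
    have h6 : (1 - (s : ℝ)) * X = X - X * (s : ℝ) := by ring
    linarith
  · have ha := abs_le.1 (abs_log_bound s hs.le hs1 k)
    have h2' : -((LQ s k : ℚ) : ℝ) + ((s ^ (k + 1) / (1 - s) : ℚ) : ℝ) <
        ((2 * c₀ / q : ℚ) : ℝ) *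
          ((w0 : ℝ) * ((logLow t0 k0 : ℚ) : ℝ) + (w1 : ℝ) * ((logLow t1 k1 : ℚ) : ℝ)
            + (w2 : ℝ) * ((logLow t2 k2 : ℚ) : ℝ) + (w3 : ℝ) * ((logLow t3 k3 : ℚ) : ℝ)) := by
      exact_mod_cast h2
    have hcq : (0 : ℝ) ≤ ((2 * c₀ / q : ℚ) : ℝ) := by
      have : (0 : ℚ) ≤ 2 * c₀ / q := by positivity
      exact_mod_cast this
    have hcq' : 2 * (c₀ : ℝ) / (q : ℝ) = ((2 * c₀ / q : ℚ) : ℝ) := by
      push_cast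
      rfl
    rw [hcq', Fin.sum_univ_four, hω0, hω1, hω2, hω3, hθ0, hθ1, hθ2, hθ3]
    obtain ⟨hw0, hw1, hw2, hw3⟩ := hw
    have hw0' : (0 : ℝ) ≤ w0 := by exact_mod_cast hw0
    have hw1' : (0 : ℝ) ≤ w1 := by exact_mod_cast hw1
    have hw2' : (0 : ℝ) ≤ w2 := by exact_mod_cast hw2
    have hw3' : (0 : ℝ) ≤ w3 := by exact_mod_cast hw3
    have l0 := mul_le_mul_of_nonneg_left (logLow_le t0 ht0.1 ht0.2 k0) hw0'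
    have l1 := mul_le_mul_of_nonneg_left (logLow_le t1 ht1.1 ht1.2 k1) hw1'
    have l2 := mul_le_mul_of_nonneg_left (logLow_le t2 ht2.1 ht2.2 k2) hw2'
    have l3 := mul_le_mul_of_nonneg_left (logLow_le t3 ht3.1 ht3.2 k3) hw3'
    have h7 := mul_le_mul_of_nonneg_left (add_le_add (add_le_add (add_le_add l0 l1) l2) l3) hcq
    linarith [ha.2]

end Vale.Agent.P170
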