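import Vale.Agent.P170.UB2.TabEval
import Vale.Agent.P170.UB2.Atoms3

/-!
Reduction of the upper bound for random 3-SAT with finitely many atoms to exact rational
arithmetic.
-/

namespace Vale.Agent.P170

open Finset Filter Topology

/-- product of truncated exponentials over all pairs of atoms -/
def TQ {T : Type} [Fintype T] (μ : ℚ) (w u : T → ℚ) (R i : ℕ) : ℚ :=
  ∏ e : T × T, SRQ (μ * (w e.1 * w e.2) * (1 - u e.1 * u e.2) ^ i) R

theorem TQ_cast {T : Type} [Fintype T] [DecidableEq T] (μ : ℚ) (w u : T → ℚ) (R i : ℕ) :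
    ((TQ μ w u R i : ℚ) : ℝ) =
      boxG (fun e : T × T => (μ : ℝ) * ((w e.1 : ℝ) * (w e.2 : ℝ)))
        (fun e => 1 - (u e.1 : ℝ) * (u e.2 : ℝ)) R 0 i := by
  rw [boxG_zero]
  unfold TQ
  rw [Rat.cast_prod]
  refine Finset.prod_congr rfl fun e _ => ?_
  rw [SRQ_cast]
  push_cast
  rfl

/-- the rational lower bound for the weighted sum of squares of box moments -/
def SigT {T : Type} [Fintype T] (r μ : ℚ) (w u : T → ℚ) (P R : ℕ) : ℚ :=
  sigL r P 0 r (diffL (mkL (TQ μ w u R) 0 (P + 1)))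

theorem SigT_le {T : Type} [Fintype T] [DecidableEq T] (r μ : ℚ) (hr0 : 0 ≤ r) (hr1 : r ≤ 1)
    (w u : T → ℚ) (P R : ℕ) :
    ((SigT r μ w u P R : ℚ) : ℝ) ≤ ∑ p ∈ range P, bc (r : ℝ) p *
      (boxMom (fun e : T × T => (μ : ℝ) * ((w e.1 : ℝ) * (w e.2 : ℝ)))
        (fun e => 1 - (u e.1 : ℝ) * (u e.2 : ℝ)) R (p + 1)) ^ 2 := by
  set ν : T × T → ℝ := fun e => (μ : ℝ) * ((w e.1 : ℝ) * (w e.2 : ℝ)) with hν
  set x : T × T → ℝ := fun e => 1 - (u e.1 : ℝ) * (u e.2 : ℝ) with hx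
  have h0 : Tab (mkL (TQ μ w u R) 0 (P + 1)) (fun i => boxG ν x R 0 (0 + i)) :=
    Tab_mkL (TQ μ w u R) (boxG ν x R 0) (fun i => TQ_cast μ w u R i) (P + 1) 0
  have h1 : Tab (diffL (mkL (TQ μ w u R) 0 (P + 1))) (boxG ν x R (0 + 1)) := by
    have := Tab_diffL _ _ h0
    have e : (fun i => boxG ν x R 0 (0 + i) - boxG ν x R 0 (0 + (i + 1))) =
        boxG ν x R (0 + 1) := by
      funext i
      rw [zero_add, zero_add, zero_add, boxG_succ]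
    rw [e] at this
    exact this
  have h2 := sigL_le r hr0 hr1 (boxG ν x R) (boxG_succ ν x R) P 0 _ h1
  have e2 : ∑ j ∈ range P, bc (r : ℝ) (0 + j) * (boxG ν x R (0 + j + 1) 0) ^ 2 =
      ∑ p ∈ range P, bc (r : ℝ) p * (boxMom ν x R (p + 1)) ^ 2 := by
    refine Finset.sum_congr rfl fun j _ => ?_
    rw [zero_add, boxG_right_zero]
  rw [e2] at h2
  exact h2

/-- rational inequalities imply that random 3-SAT is unsatisfiable whp above density `c₀` -/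
theorem ub_of_rat {T : Type} [Fintype T] [DecidableEq T] (w u : T → ℚ) (c₀ : ℚ) (q P R₀ : ℕ)
    (s Eb dl umax : ℚ) (m n k K : ℕ)
    (hw : ∀ t, 0 ≤ w t) (hws : ∑ t, w t = 1) (hu0 : ∀ t, 0 ≤ u t) (hu1 : ∀ t, u t ≤ umax)
    (humax : umax < 1) (hc₀ : 0 < c₀) (hq : 1 ≤ q) (hn : 0 < n) (hs : 0 < s) (hs1 : s < 1)
    (hE0 : 0 ≤ Eb) (hdl : 0 < dl)
    (hmn : 3 * c₀ = (m : ℚ) / n)
    (hE : (27182818286 / 10000000000 : ℚ) ^ m ≤ Eb ^ n)
    (h1 : Eb * s ≤ SigT (1 / q) (3 * c₀ / 2) w u P R₀)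
    (h2 : -LQ s k + s ^ (k + 1) / (1 - s) + (1 + dl) * (2 * c₀ / q) *
      ∑ e : T × T × T, w e.1 * w e.2.1 * w e.2.2 *
        (-(logLow (u e.1 * u e.2.1 * u e.2.2) K)) < 0) :
    ∀ c : ℝ, (c₀ : ℝ) ≤ c → Tendsto (fun n : ℕ => satProb 3 n ⌊c * (n : ℝ)⌋₊) atTop (𝓝 0) := by
  have hs' : (0 : ℝ) < s := by exact_mod_cast hs
  have hs1' : (s : ℝ) < 1 := by exact_mod_cast hs1
  have hw' : ∀ t, (0 : ℝ) ≤ (w t : ℝ) := fun t => by exact_mod_cast hw t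
  have hu0' : ∀ t, (0 : ℝ) ≤ (u t : ℝ) := fun t => by exact_mod_cast hu0 t
  have hu1' : ∀ t, (u t : ℝ) ≤ (umax : ℝ) := fun t => by exact_mod_cast hu1 t
  have humax' : (umax : ℝ) < 1 := by exact_mod_cast humax
  have hc₀' : (0 : ℝ) < c₀ := by exact_mod_cast hc₀
  have hdl' : (0 : ℝ) < dl := by exact_mod_cast hdl
  have hq0 : (0 : ℚ) < q := by exact_mod_cast hq
  have hws' : ∑ t, (w t : ℝ) = 1 := by exact_mod_cast hws
  set ν : T × T → ℝ := fun e => 3 * (c₀ : ℝ) / 2 * ((w e.1 : ℝ) * (w e.2 : ℝ)) with hν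
  set x : T × T → ℝ := fun e => 1 - (u e.1 : ℝ) * (u e.2 : ℝ) with hx
  have hν0 : ∀ e, 0 ≤ ν e := fun e => by
    simp only [hν]
    exact mul_nonneg (by positivity) (mul_nonneg (hw' _) (hw' _))
  have hule : ∀ t, (u t : ℝ) ≤ 1 := fun t => (hu1' t).trans humax'.le
  have hx0 : ∀ e, 0 ≤ x e := fun e => by
    simp only [hx]
    have := mul_le_one₀ (hule e.1) (hu0' e.2) (hule e.2)
    linarith
  have hx1 : ∀ e, x e ≤ 1 := fun e => by
    simp only [hx]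
    have := mul_nonneg (hu0' e.1) (hu0' e.2)
    linarith
  refine ub_atoms3 (fun t => (w t : ℝ)) (fun t => (u t : ℝ)) hw' hws' hu0' (umax : ℝ) hu1' humax'
    (c₀ : ℝ) hc₀' q P hq (fun p => boxMom ν x R₀ (p + 1)) R₀
    (fun p _ => boxMom_nonneg ν x hν0 hx0 hx1 R₀ (p + 1))
    (fun p _ R hR => boxMom_mono ν x hν0 hx0 hx1 hR (p + 1))
    (1 - (s : ℝ)) (dl : ℝ) (by linarith) hdl' ?_ ?_
  · have hexp : Real.exp (3 * (c₀ : ℝ)) ≤ (Eb : ℝ) := by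
      have h3 : (3 * (c₀ : ℝ)) = (m : ℝ) / n := by
        have := congrArg (fun t : ℚ => (t : ℝ)) hmn
        push_cast at this ⊢
        exact this
      rw [h3]
      exact exp_le_of_pow m n hn Eb hE0 hE
    have hr0 : (0 : ℚ) ≤ 1 / q := by positivity
    have hr1 : (1 : ℚ) / q ≤ 1 := by
      rw [div_le_one hq0]
      exact_mod_cast hq
    have hS := SigT_le (1 / q) (3 * c₀ / 2) hr0 hr1 w u P R₀
    have hqc : (((1 / q : ℚ)) : ℝ) = 1 / (q : ℝ) := by push_cast; rfl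
    have hμc : (((3 * c₀ / 2 : ℚ)) : ℝ) = 3 * (c₀ : ℝ) / 2 := by push_cast; rfl
    rw [hqc, hμc] at hS
    have h1' : (Eb : ℝ) * (s : ℝ) ≤ ((SigT (1 / q) (3 * c₀ / 2) w u P R₀ : ℚ) : ℝ) := by
      exact_mod_cast h1
    have h5 := mul_le_mul_of_nonneg_right hexp hs'.le
    have h6 : (1 - (s : ℝ)) * Real.exp (3 * (c₀ : ℝ)) =
        Real.exp (3 * (c₀ : ℝ)) - Real.exp (3 * (c₀ : ℝ)) * (s : ℝ) := by ring
    rw [h6]
    linarith
  · have ha := abs_le.1 (abs_log_bound s hs.le hs1 k)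
    have h2' : -((LQ s k : ℚ) : ℝ) + ((s ^ (k + 1) / (1 - s) : ℚ) : ℝ) +
        (1 + (dl : ℝ)) * (2 * (c₀ : ℝ) / (q : ℝ)) *
          ∑ e : T × T × T, (w e.1 : ℝ) * (w e.2.1 : ℝ) * (w e.2.2 : ℝ) *
            (-((logLow (u e.1 * u e.2.1 * u e.2.2) K : ℚ) : ℝ)) < 0 := by
      exact_mod_cast h2
    have hsum : ∑ e : T × T × T, (w e.1 : ℝ) * (w e.2.1 : ℝ) * (w e.2.2 : ℝ) *
          (-Real.log (1 - (u e.1 : ℝ) * (u e.2.1 : ℝ) * (u e.2.2 : ℝ))) ≤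
        ∑ e : T × T × T, (w e.1 : ℝ) * (w e.2.1 : ℝ) * (w e.2.2 : ℝ) *
          (-((logLow (u e.1 * u e.2.1 * u e.2.2) K : ℚ) : ℝ)) := by
      refine Finset.sum_le_sum fun e _ => ?_
      apply mul_le_mul_of_nonneg_left _
        (mul_nonneg (mul_nonneg (hw' _) (hw' _)) (hw' _))
      have t0 : 0 ≤ u e.1 * u e.2.1 * u e.2.2 :=
        mul_nonneg (mul_nonneg (hu0 _) (hu0 _)) (hu0 _)
      have hule' : ∀ t, u t ≤ 1 := fun t => (hu1 t).trans humax.le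
      have t1 : u e.1 * u e.2.1 * u e.2.2 < 1 := by
        have a1 : u e.1 * u e.2.1 ≤ 1 := mul_le_one₀ (hule' _) (hu0 _) (hule' _)
        have a2 : u e.1 * u e.2.1 * u e.2.2 ≤ 1 * u e.2.2 :=
          mul_le_mul_of_nonneg_right a1 (hu0 _)
        have a3 : u e.2.2 < 1 := lt_of_le_of_lt (hu1 _) humax
        linarith
      have := logLow_le _ t0 t1 K
      push_cast at this
      linarith
    have hpos : 0 ≤ (1 + (dl : ℝ)) * (2 * (c₀ : ℝ) / (q : ℝ)) := by positivity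
    have h7 := mul_le_mul_of_nonneg_left hsum hpos
    linarith [ha.2]

end Vale.Agent.P170
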