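import Vale.Agent.P170.UB2.CertW

/-!
Exact rational certificate: random 3-SAT is unsatisfiable whp at clause density at least 427 / 100.
-/

namespace Vale.Agent.P170

open Filter Topology

set_option maxRecDepth 100000 in
theorem ub427 : ∀ c : ℝ, ((427 / 100 : ℚ) : ℝ) ≤ c →
    Tendsto (fun n : ℕ => satProb 3 n ⌊c * (n : ℝ)⌋₊) atTop (𝓝 0) :=
  ub_of_rat (T := Fin 2) ![21 / 32, 11 / 32] ![3 / 13, 13 / 16] (427 / 100) 100000000 150 25
    (79272827 / 10000000000000000) (91464449 / 250) (1 / 100000) (13 / 16) 1281 100 3 40
    (by decide +kernel) (by decide +kernel) (by decide +kernel) (by decide +kernel)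
    (by decide +kernel) (by decide +kernel) (by decide +kernel) (by decide +kernel)
    (by decide +kernel) (by decide +kernel) (by decide +kernel) (by decide +kernel)
    (by decide +kernel) (by decide +kernel) (by decide +kernel) (by decide +kernel)

/-- random 3-SAT is unsatisfiable whp at every clause density at least 4.27 -/
theorem ub427_real : ∀ c : ℝ, (427 / 100 : ℝ) ≤ c →
    Tendsto (fun n : ℕ => satProb 3 n ⌊c * (n : ℝ)⌋₊) atTop (𝓝 0) := by
  intro c hc
  apply ub427 c
  push_cast
  exact hc

end Vale.Agent.P170
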