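import Vale.Agent.P170.UB2.MainW

namespace Vale.Agent.P170

open Finset Filter Topology

lemma boxMom_nonneg {E : Type} [Fintype E] [DecidableEq E] (ν x : E → ℝ) (hν : ∀ e, 0 ≤ ν e)
    (hx0 : ∀ e, 0 ≤ x e) (hx1 : ∀ e, x e ≤ 1) (R p : ℕ) : 0 ≤ boxMom ν x R p := by
  unfold boxMom
  refine Finset.sum_nonneg (fun a _ => mul_nonneg (pw_nonneg ν hν a) (pow_nonneg ?_ _))
  have : ∏ e, x e ^ (a e) ≤ 1 := Finset.prod_le_one (fun e _ => pow_nonneg (hx0 e) _)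
    (fun e _ => pow_le_one₀ (hx0 e) (hx1 e))
  linarith

lemma boxMom_mono {E : Type} [Fintype E] [DecidableEq E] (ν x : E → ℝ) (hν : ∀ e, 0 ≤ ν e)
    (hx0 : ∀ e, 0 ≤ x e) (hx1 : ∀ e, x e ≤ 1) {R R' : ℕ} (h : R ≤ R') (p : ℕ) :
    boxMom ν x R p ≤ boxMom ν x R' p := by
  unfold boxMom
  apply Finset.sum_le_sum_of_subset_of_nonneg
  · apply Fintype.piFinset_subset
    intro e i hi
    rw [Finset.mem_range] at hi ⊢
    omega
  · intro a _ _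
    refine mul_nonneg (pw_nonneg ν hν a) (pow_nonneg ?_ _)
    have : ∏ e, x e ^ (a e) ≤ 1 := Finset.prod_le_one (fun e _ => pow_nonneg (hx0 e) _)
      (fun e _ => pow_le_one₀ (hx0 e) (hx1 e))
    linarith

/-- weights of the three field types for two atoms -/
noncomputable def om3 (w1 : ℝ) : Fin 3 → ℝ := ![w1 ^ 2, 2 * w1 * (1 - w1), (1 - w1) ^ 2]
/-- strengths of the three field types -/
noncomputable def et3 (u1 u2 : ℝ) : Fin 3 → ℝ := ![u1 ^ 2, u1 * u2, u2 ^ 2]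
/-- weights of the four rescaling types -/
noncomputable def om4 (w1 : ℝ) : Fin 4 → ℝ :=
  ![w1 ^ 3, 3 * w1 ^ 2 * (1 - w1), 3 * w1 * (1 - w1) ^ 2, (1 - w1) ^ 3]
/-- the four products of three atoms -/
noncomputable def th4 (u1 u2 : ℝ) : Fin 4 → ℝ := ![u1 ^ 3, u1 ^ 2 * u2, u1 * u2 ^ 2, u2 ^ 3]

/-- numerical certificate for `k = 3` and a two-atom order parameter -/
def Cert2 (c₀ u1 u2 w1 dl : ℝ) (q P R : ℕ) : Prop :=
  ∃ B : ℝ, 0 < B ∧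
    Real.exp (3 * c₀) - ∑ p ∈ range P, bc (1 / (q : ℝ)) p *
        (boxMom (fun e => 3 * c₀ / 2 * om3 w1 e) (fun e => 1 - et3 u1 u2 e) R (p + 1)) ^ 2
      ≤ B * Real.exp (3 * c₀) ∧
    Real.log B + (1 + dl) * (2 * c₀ / q) *
      ∑ e : Fin 4, om4 w1 e * (-Real.log (1 - th4 u1 u2 e)) < 0

theorem ub_two_atoms (c₀ u1 u2 w1 dl : ℝ) (hc₀ : 0 < c₀) (hu1 : 0 ≤ u1) (hu12 : u1 ≤ u2)
    (hu2 : u2 < 1) (hw0 : 0 ≤ w1) (hw1 : w1 ≤ 1) (hdl : 0 < dl) (q P R : ℕ) (hq : 1 ≤ q)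
    (hcert : Cert2 c₀ u1 u2 w1 dl q P R) :
    ∀ c : ℝ, c₀ ≤ c → Tendsto (fun n : ℕ => satProb 3 n ⌊c * (n : ℝ)⌋₊) atTop (𝓝 0) := by
  obtain ⟨B, hB0, hB, hlog⟩ := hcert
  have hu2' : 0 ≤ u2 := hu1.trans hu12
  have hw2 : 0 ≤ 1 - w1 := by linarith
  have h3 : ((2 : ℕ) : ℝ) + 1 = 3 := by norm_num
  have hω : ∀ e, 0 ≤ om3 w1 e := by
    intro e; fin_cases e <;> simp [om3] <;> positivity
  have hω' : ∀ e, 0 ≤ om4 w1 e := by
    intro e; fin_cases e <;> simp [om4] <;> positivity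
  have hη0 : ∀ e, 0 ≤ et3 u1 u2 e := by
    intro e; fin_cases e <;> simp [et3] <;> positivity
  have hu11 : u1 ≤ 1 := by linarith
  have hη1 : ∀ e, et3 u1 u2 e ≤ 1 := by
    intro e
    fin_cases e
    · show u1 ^ 2 ≤ 1
      nlinarith
    · show u1 * u2 ≤ 1
      nlinarith
    · show u2 ^ 2 ≤ 1
      nlinarith
  have hϑ0 : ∀ e, 0 ≤ th4 u1 u2 e := by
    intro e; fin_cases e <;> simp [th4] <;> positivity
  have hu23 : u2 ^ 3 < 1 := pow_lt_one₀ hu2' hu2 (by norm_num)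
  have hϑ1 : ∀ e, 1 - u2 ^ 3 ≤ 1 - th4 u1 u2 e := by
    intro e
    have a1 : u1 ^ 2 ≤ u2 ^ 2 := pow_le_pow_left₀ hu1 hu12 2
    have a2 : u1 ^ 3 ≤ u2 ^ 3 := pow_le_pow_left₀ hu1 hu12 3
    have a3 : 0 ≤ u2 ^ 2 := by positivity
    fin_cases e
    · show 1 - u2 ^ 3 ≤ 1 - u1 ^ 3
      linarith
    · show 1 - u2 ^ 3 ≤ 1 - u1 ^ 2 * u2
      nlinarith
    · show 1 - u2 ^ 3 ≤ 1 - u1 * u2 ^ 2
      nlinarith
    · show 1 - u2 ^ 3 ≤ 1 - u2 ^ 3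
      linarith
  have hν : ∀ e, 0 ≤ 3 * c₀ / 2 * om3 w1 e := fun e => mul_nonneg (by positivity) (hω e)
  have hx0 : ∀ e, 0 ≤ 1 - et3 u1 u2 e := fun e => by linarith [hη1 e]
  have hx1 : ∀ e, 1 - et3 u1 u2 e ≤ 1 := fun e => by linarith [hη0 e]
  refine ub_main_w 2 (by norm_num) c₀ hc₀ (om3 w1) (et3 u1 u2) (om4 w1) (th4 u1 u2)
    (fun p => w1 * u1 ^ p + (1 - w1) * u2 ^ p) (fun p => by positivity) ?_ ?_ ?_ ?_ hω hω' hη0 hη1
    (1 - u2 ^ 3) (by linarith) hϑ0 hϑ1 q P hq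
    (fun p => boxMom (fun e => 3 * c₀ / 2 * om3 w1 e) (fun e => 1 - et3 u1 u2 e) R (p + 1)) R
    (fun p _ => boxMom_nonneg _ _ hν hx0 hx1 _ _) ?_ B dl hB0 hdl ?_ ?_
  · intro p
    rw [Fin.sum_univ_three]
    simp only [om3, et3, Matrix.cons_val_zero, Matrix.cons_val_one, Matrix.cons_val]
    have e1 : (u1 ^ 2) ^ p = (u1 ^ p) ^ 2 := by rw [← pow_mul, ← pow_mul, mul_comm]
    have e2 : (u2 ^ 2) ^ p = (u2 ^ p) ^ 2 := by rw [← pow_mul, ← pow_mul, mul_comm]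
    rw [e1, e2, mul_pow]
    ring
  · intro p
    rw [Fin.sum_univ_four]
    simp only [om4, th4, Matrix.cons_val_zero, Matrix.cons_val_one, Matrix.cons_val]
    have e1 : (u1 ^ 3) ^ p = (u1 ^ p) ^ 3 := by rw [← pow_mul, ← pow_mul, mul_comm]
    have e2 : (u2 ^ 3) ^ p = (u2 ^ p) ^ 3 := by rw [← pow_mul, ← pow_mul, mul_comm]
    have e3 : (u1 ^ 2) ^ p = (u1 ^ p) ^ 2 := by rw [← pow_mul, ← pow_mul, mul_comm]
    have e4 : (u2 ^ 2) ^ p = (u2 ^ p) ^ 2 := by rw [← pow_mul, ← pow_mul, mul_comm]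
    rw [e1, e2, mul_pow, mul_pow, e3, e4]
    ring
  · rw [Fin.sum_univ_three]
    simp only [om3, Matrix.cons_val_zero, Matrix.cons_val_one, Matrix.cons_val]
    ring
  · rw [Fin.sum_univ_four]
    simp only [om4, Matrix.cons_val_zero, Matrix.cons_val_one, Matrix.cons_val]
    ring
  · intro p _ R' hR'
    rw [h3]
    exact boxMom_mono _ _ hν hx0 hx1 hR' _
  · rw [h3]; exact hB
  · have e : ((2 : ℕ) : ℝ) = 2 := by norm_num
    rw [e]; exact hlog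

end Vale.Agent.P170
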