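import Vale.Agent.P170.UB2.MainW
import Vale.Agent.P170.UB2.BoxEval
import Vale.Agent.P170.UB2.TwoAtoms

/-!
Closed form of the multi-strength upper bound: the truncation parameters are sent to their limits.
-/

namespace Vale.Agent.P170

open Finset Filter Topology

/-- elementary lower bound for the binomial coefficients `bc` -/
lemma bc_lower (r : ℝ) (h0 : 0 ≤ r) (h1 : r ≤ 1) (p : ℕ) :
    r * (1 - r * p) / ((p : ℝ) + 1) ≤ bc r p := by
  induction p with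
  | zero => simp [bc]
  | succ p ih =>
    have hp : (0 : ℝ) ≤ p := Nat.cast_nonneg p
    have hf : 0 ≤ ((p : ℝ) + 1 - r) / ((p : ℝ) + 2) := div_nonneg (by linarith) (by linarith)
    have h2 : r * (1 - r * p) / ((p : ℝ) + 1) * (((p : ℝ) + 1 - r) / ((p : ℝ) + 2))
        ≤ bc r p * (((p : ℝ) + 1 - r) / ((p : ℝ) + 2)) := mul_le_mul_of_nonneg_right ih hf
    have h3 : bc r (p + 1) = bc r p * (((p : ℝ) + 1 - r) / ((p : ℝ) + 2)) := by
      simp only [bc]; ring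
    rw [h3]
    refine le_trans ?_ h2
    push_cast
    rw [div_mul_div_comm, div_le_div_iff₀ (by positivity) (by positivity)]
    have h4 : 0 ≤ r * ((p : ℝ) + r * p) := by positivity
    have h5 : 0 ≤ (p : ℝ) + 2 := by linarith
    nlinarith [mul_nonneg h4 h5]

lemma tendsto_texp_sum (z : ℝ) :
    Tendsto (fun R : ℕ => ∑ a ∈ range (R + 1), z ^ a / (a.factorial : ℝ)) atTop
      (𝓝 (Real.exp z)) := by
  have h := (NormedSpace.expSeries_div_hasSum_exp (z : ℝ)).tendsto_sum_nat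
  rw [← Real.exp_eq_exp_ℝ] at h
  exact h.comp (tendsto_add_atTop_nat 1)

lemma tendsto_boxMom {E : Type} [Fintype E] [DecidableEq E] (ν x : E → ℝ) (p : ℕ) :
    Tendsto (fun R : ℕ => boxMom ν x R p) atTop
      (𝓝 (∑ i ∈ range (p + 1), (-1) ^ i * (p.choose i : ℝ) * Real.exp (∑ e, ν e * x e ^ i))) := by
  simp_rw [boxMom_eq]
  refine tendsto_finsetSum _ (fun i _ => ?_)
  refine Tendsto.const_mul _ ?_
  rw [Real.exp_sum]
  exact tendsto_finsetProd _ (fun e _ => tendsto_texp_sum _)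

theorem ub_closed (m : ℕ) (hm : 1 ≤ m) (c₀ : ℝ) (hc₀ : 0 < c₀)
    {E E' : Type} [Fintype E] [DecidableEq E] [Fintype E'] (ω η : E → ℝ) (ω' ϑ : E' → ℝ)
    (qm : ℕ → ℝ) (hq0 : ∀ p, 0 ≤ qm p) (hmom : ∀ p, ∑ e, ω e * η e ^ p = qm p ^ m)
    (hmom' : ∀ p, ∑ e, ω' e * ϑ e ^ p = qm p ^ (m + 1))
    (hsum : ∑ e, ω e = 1) (hsum' : ∑ e, ω' e = 1) (hω : ∀ e, 0 ≤ ω e) (hω' : ∀ e, 0 ≤ ω' e)
    (hη0 : ∀ e, 0 ≤ η e) (hη1 : ∀ e, η e ≤ 1)
    (θmin : ℝ) (hθmin : 0 < θmin) (hϑ0 : ∀ e, 0 ≤ ϑ e) (hϑ1 : ∀ e, θmin ≤ 1 - ϑ e) (P : ℕ)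
    (hcrit : c₀ * m * ∑ e, ω' e * (-Real.log (1 - ϑ e))
      < ∑ p ∈ range P, (∑ i ∈ range (p + 2), (-1 : ℝ) ^ i * ((p + 1).choose i : ℝ) *
          Real.exp (-(((m : ℝ) + 1) * c₀ / 2) * (1 - ∑ e, ω e * (1 - η e) ^ i))) ^ 2 / ((p : ℝ) + 1)) :
    ∀ c : ℝ, c₀ ≤ c → Tendsto (fun n : ℕ => satProb (m + 1) n ⌊c * (n : ℝ)⌋₊) atTop (𝓝 0) := by
  set μ := ((m : ℝ) + 1) * c₀ / 2 with hμ
  set Lam := ∑ e, ω' e * (-Real.log (1 - ϑ e)) with hLam
  set L0 := c₀ * m * Lam with hL0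
  set S := ∑ p ∈ range P, (∑ i ∈ range (p + 2), (-1 : ℝ) ^ i * ((p + 1).choose i : ℝ) *
          Real.exp (-μ * (1 - ∑ e, ω e * (1 - η e) ^ i))) ^ 2 / ((p : ℝ) + 1) with hS
  have hLam0 : 0 ≤ Lam := by
    refine Finset.sum_nonneg (fun e _ => mul_nonneg (hω' e) ?_)
    have h1 : 0 < 1 - ϑ e := lt_of_lt_of_le hθmin (hϑ1 e)
    have h2 : Real.log (1 - ϑ e) ≤ 0 := Real.log_nonpos h1.le (by linarith [hϑ0 e])
    linarith
  have hL00 : 0 ≤ L0 := by rw [hL0]; positivity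
  set S1 := (S + L0) / 2 with hS1
  have hS1S : S1 < S := by rw [hS1]; linarith
  have hg : 0 < S1 - L0 := by rw [hS1]; linarith
  have hS10 : 0 < S1 := by linarith
  set ν : E → ℝ := fun e => μ * ω e with hν
  set x : E → ℝ := fun e => 1 - η e with hx
  have hμ0 : 0 < μ := by rw [hμ]; positivity
  have hν0 : ∀ e, 0 ≤ ν e := fun e => mul_nonneg hμ0.le (hω e)
  have hx0 : ∀ e, 0 ≤ x e := fun e => by simp only [hx]; linarith [hη1 e]
  have hx1 : ∀ e, x e ≤ 1 := fun e => by simp only [hx]; linarith [hη0 e]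
  -- the limit of the box sums
  have hlim : Tendsto (fun R : ℕ => ∑ p ∈ range P, boxMom ν x R (p + 1) ^ 2 / ((p : ℝ) + 1)) atTop
      (𝓝 (Real.exp (2 * μ) * S)) := by
    rw [hS, Finset.mul_sum]
    refine tendsto_finsetSum _ (fun p _ => ?_)
    have h1 := tendsto_boxMom ν x (p + 1)
    have h2 : (∑ i ∈ range (p + 1 + 1), (-1 : ℝ) ^ i * ((p + 1).choose i : ℝ) *
        Real.exp (∑ e, ν e * x e ^ i)) = Real.exp μ * ∑ i ∈ range (p + 2), (-1 : ℝ) ^ i *
          ((p + 1).choose i : ℝ) * Real.exp (-μ * (1 - ∑ e, ω e * (1 - η e) ^ i)) := by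
      rw [Finset.mul_sum]
      refine Finset.sum_congr rfl (fun i _ => ?_)
      rw [mul_left_comm, ← Real.exp_add]
      congr 2
      simp only [hν, hx]
      simp_rw [mul_assoc]
      rw [← Finset.mul_sum]
      ring
    rw [h2] at h1
    have h3 := (h1.pow 2).div_const ((p : ℝ) + 1)
    convert h3 using 2
    rw [mul_pow, ← Real.exp_nat_mul]
    push_cast
    ring
  have hev : ∀ᶠ R : ℕ in atTop, Real.exp (2 * μ) * S1
      < ∑ p ∈ range P, boxMom ν x R (p + 1) ^ 2 / ((p : ℝ) + 1) :=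
    hlim.eventually (lt_mem_nhds (mul_lt_mul_of_pos_left hS1S (Real.exp_pos _)))
  obtain ⟨R, hR⟩ := hev.exists
  -- choice of q
  obtain ⟨q, hqbig⟩ := exists_nat_gt (S1 + P + 4 * P * S1 / (S1 - L0) + 1)
  have hP0 : (0 : ℝ) ≤ P := Nat.cast_nonneg P
  have hterm0 : 0 ≤ 4 * P * S1 / (S1 - L0) := by positivity
  have hq1' : (1 : ℝ) < q := by linarith
  have hq1 : 1 ≤ q := by
    have : (1 : ℝ) ≤ q := hq1'.le
    exact_mod_cast this
  have hqpos : (0 : ℝ) < q := by linarith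
  set r := 1 / (q : ℝ) with hr
  have hr0 : 0 < r := by rw [hr]; positivity
  have hr1 : r ≤ 1 := by rw [hr, div_le_one hqpos]; exact hq1'.le
  have hrS1 : r * S1 < 1 := by
    rw [hr, one_div, inv_mul_lt_iff₀ hqpos]; linarith
  have hrP : r * P ≤ 1 := by
    rw [hr, one_div, inv_mul_le_iff₀ hqpos]; linarith
  have hrPS : r * P * S1 ≤ (S1 - L0) / 4 := by
    have h1 : 4 * P * S1 / (S1 - L0) ≤ q := by linarith
    rw [div_le_iff₀ hg] at h1
    rw [hr, one_div, mul_assoc, inv_mul_le_iff₀ hqpos]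
    linarith
  set dl := (S1 - L0) / (4 * (L0 + 1)) with hdl
  have hdl0 : 0 < dl := by rw [hdl]; positivity
  have hdlL : dl * L0 ≤ (S1 - L0) / 4 := by
    rw [hdl, div_mul_eq_mul_div, div_le_div_iff₀ (by positivity) (by norm_num)]
    nlinarith
  set B := 1 - r * (1 - r * P) * S1 with hB
  have h1rP : 0 ≤ 1 - r * P := by linarith
  have h1rP1 : 1 - r * P ≤ 1 := by
    have : 0 ≤ r * P := by positivity
    linarith
  have hB0 : 0 < B := by
    have : r * (1 - r * P) * S1 ≤ r * S1 := by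
      have : r * (1 - r * P) ≤ r * 1 := mul_le_mul_of_nonneg_left h1rP1 hr0.le
      nlinarith
    rw [hB]; linarith
  refine ub_main_w m hm c₀ hc₀ ω η ω' ϑ qm hq0 hmom hmom' hsum hsum' hω hω' hη0 hη1 θmin hθmin
    hϑ0 hϑ1 q P hq1 (fun p => boxMom ν x R (p + 1)) R
    (fun p _ => boxMom_nonneg ν x hν0 hx0 hx1 R (p + 1))
    (fun p _ R' hR' => boxMom_mono ν x hν0 hx0 hx1 hR' (p + 1)) B dl hB0 hdl0 ?_ ?_
  · -- the bound on the truncated series
    have e2 : ((m : ℝ) + 1) * c₀ = 2 * μ := by rw [hμ]; ring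
    rw [e2]
    have h1 : r * (1 - r * P) * (∑ p ∈ range P, boxMom ν x R (p + 1) ^ 2 / ((p : ℝ) + 1))
        ≤ ∑ p ∈ range P, bc r p * boxMom ν x R (p + 1) ^ 2 := by
      rw [Finset.mul_sum]
      refine Finset.sum_le_sum (fun p hp => ?_)
      have hpP : (p : ℝ) ≤ P := by
        have := Finset.mem_range.mp hp
        exact_mod_cast this.le
      have hb := bc_lower r hr0.le hr1 p
      have hsq : 0 ≤ boxMom ν x R (p + 1) ^ 2 := sq_nonneg _
      have hp1 : (0 : ℝ) < (p : ℝ) + 1 := by positivity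
      have h3 : r * (1 - r * P) / ((p : ℝ) + 1) ≤ bc r p := by
        refine le_trans ?_ hb
        apply div_le_div_of_nonneg_right _ hp1.le
        apply mul_le_mul_of_nonneg_left _ hr0.le
        have : r * p ≤ r * P := mul_le_mul_of_nonneg_left hpP hr0.le
        linarith
      calc r * (1 - r * P) * (boxMom ν x R (p + 1) ^ 2 / ((p : ℝ) + 1))
          = r * (1 - r * P) / ((p : ℝ) + 1) * boxMom ν x R (p + 1) ^ 2 := by ring
        _ ≤ bc r p * boxMom ν x R (p + 1) ^ 2 := mul_le_mul_of_nonneg_right h3 hsq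
    have h2 : r * (1 - r * P) * (Real.exp (2 * μ) * S1)
        ≤ r * (1 - r * P) * (∑ p ∈ range P, boxMom ν x R (p + 1) ^ 2 / ((p : ℝ) + 1)) :=
      mul_le_mul_of_nonneg_left hR.le (mul_nonneg hr0.le h1rP)
    rw [hB]
    nlinarith
  · have hlogB : Real.log B ≤ B - 1 := Real.log_le_sub_one_of_pos hB0
    have e3 : (1 + dl) * (m * c₀ / q) * Lam = r * ((1 + dl) * L0) := by
      rw [hr, hL0]; ring
    rw [e3]
    have h4 : B - 1 + r * ((1 + dl) * L0) = r * (-(S1 - L0) + r * P * S1 + dl * L0) := by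
      rw [hB]; ring
    have h5 : -(S1 - L0) + r * P * S1 + dl * L0 < 0 := by linarith
    have h6 : r * (-(S1 - L0) + r * P * S1 + dl * L0) < 0 := mul_neg_of_pos_of_neg hr0 h5
    linarith

end Vale.Agent.P170
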