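import Vale.Agent.P170.UB2.Basic
import Vale.Agent.P170.UB.Decouple

/-!
Task G: the decoupling product formula with several field strengths.
-/

namespace Vale.Agent.P170

open Finset

/-- one-variable weight in terms of the two survival factors -/
noncomputable def wg (S T : ℝ) (p q : Bool) : ℝ :=
  if p = true then (if q = true then 0 else T) else (if q = true then S else Wg S T)

/-- survival factor of the literal `l` -/
noncomputable def sf {L E : Type} [Fintype E] (η : E → ℝ) (a : L × E → ℕ) (l : L) : ℝ :=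
  ∏ e, (1 - η e) ^ a (l, e)

/-- the invariant -/
def DomW {V E : Type} [Fintype V] [Fintype E] (η : E → ℝ) (φ : Set (V → Bool) → ℝ)
    (a : (V × Bool) × E → ℕ) : Prop :=
  ∀ p q : V → Bool, φ (cube p q) = ∏ v, wg (sf η a (v, true)) (sf η a (v, false)) (p v) (q v)

theorem sf_zero {L E : Type} [Fintype E] (η : E → ℝ) (l : L) : sf η (0 : L × E → ℕ) l = 1 := by
  simp [sf]

theorem sf_add_single_same {L E : Type} [Fintype E] [DecidableEq L] [DecidableEq E] (η : E → ℝ)
    (a : L × E → ℕ) (l : L) (e : E) :
    sf η (a + Pi.single (l, e) 1) l = (1 - η e) * sf η a l := by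
  unfold sf
  simp only [Pi.add_apply, pow_add, Finset.prod_mul_distrib]
  rw [mul_comm]
  congr 1
  rw [Finset.prod_eq_single e]
  · simp
  · intro e' _ he'
    have : (l, e') ≠ (l, e) := by simp [he']
    simp [Pi.single_eq_of_ne this]
  · intro h
    exact absurd (Finset.mem_univ e) h

theorem sf_add_single_ne {L E : Type} [Fintype E] [DecidableEq L] [DecidableEq E] (η : E → ℝ)
    (a : L × E → ℕ) {l l' : L} (e : E) (h : l' ≠ l) :
    sf η (a + Pi.single (l, e) 1) l' = sf η a l' := by
  unfold sf
  apply Finset.prod_congr rfl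
  intro e' _
  have : (l', e') ≠ (l, e) := by simp [h]
  simp [Pi.single_eq_of_ne this]

theorem domW_ind {V E : Type} [Fintype V] [Fintype E] (η : E → ℝ) :
    DomW η (ind : Set (V → Bool) → ℝ) (0 : (V × Bool) × E → ℕ) := by
  intro p q
  have h := dom_ind (V := V) (1 : ℝ) p q
  rw [h]
  apply Finset.prod_congr rfl
  intro v _
  simp only [sf_zero, wg, wv, Wg, Wf, Pi.zero_apply, pow_zero, add_zero, mul_one]

theorem wg_step_true (η S T : ℝ) (p q : Bool) :
    (1 - η) * wg S T p q + η * wg S T true q = wg ((1 - η) * S) T p q := by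
  cases p <;> cases q <;> simp [wg, Wg] <;> ring

theorem wg_step_false (η S T : ℝ) (p q : Bool) :
    (1 - η) * wg S T p q + η * wg S T p true = wg S ((1 - η) * T) p q := by
  cases p <;> cases q <;> simp [wg, Wg] <;> ring

theorem domW_fld {V E : Type} [Fintype V] [DecidableEq V] [Fintype E] [DecidableEq E]
    (η : E → ℝ) {φ : Set (V → Bool) → ℝ} {a : (V × Bool) × E → ℕ} (h : DomW η φ a)
    (l : V × Bool) (e : E) :
    DomW η (fld (η e) (lit l) φ) (a + Pi.single (l, e) 1) := by
  intro p q
  obtain ⟨v0, s⟩ := l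
  unfold fld
  cases s
  · rw [cube_inter_lit_false, h p q, h p (Function.update q v0 true)]
    apply prod_combine _ _ _ v0
    · intro v hv
      rw [Function.update_of_ne hv]
    · intro v hv
      have e1 : (v, true) ≠ (v0, false) := by simp
      have e2 : (v, false) ≠ (v0, false) := by simp [hv]
      rw [sf_add_single_ne η a e e1, sf_add_single_ne η a e e2]
    · have e1 : (v0, true) ≠ (v0, false) := by simp
      rw [sf_add_single_ne η a e e1, sf_add_single_same, Function.update_self]
      exact wg_step_false _ _ _ _ _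
  · rw [cube_inter_lit_true, h p q, h (Function.update p v0 true) q]
    apply prod_combine _ _ _ v0
    · intro v hv
      rw [Function.update_of_ne hv]
    · intro v hv
      have e1 : (v, true) ≠ (v0, true) := by simp [hv]
      have e2 : (v, false) ≠ (v0, true) := by simp
      rw [sf_add_single_ne η a e e1, sf_add_single_ne η a e e2]
    · have e1 : (v0, false) ≠ (v0, true) := by simp
      rw [sf_add_single_ne η a e e1, sf_add_single_same, Function.update_self]
      exact wg_step_true _ _ _ _ _

theorem THw_apply {Ω L E : Type} [Fintype L] [Fintype E] (ω η : E → ℝ) (hl : L → Set Ω)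
    (Ψ : (Set Ω → ℝ) → Set Ω → ℝ) (φ : Set Ω → ℝ) (X : Set Ω) :
    THw ω η hl Ψ φ X
      = ∑ e : E, ω e * ((∑ l : L, Ψ (fld (η e) (hl l) φ) X) / (Fintype.card L : ℝ)) := rfl

theorem cavgw_apply {J : Type} [Fintype J] [DecidableEq J] (π : J → ℝ) (F : (J → ℕ) → ℝ)
    (a : J → ℕ) : cavgw π F a = ∑ j : J, π j * F (a + Pi.single j 1) := rfl

theorem decouple_w_aux {V E : Type} [Fintype V] [DecidableEq V] [Fintype E] [DecidableEq E]
    (ω η : E → ℝ) (Γ : ℝ → ℝ) (R : ℕ) :
    ∀ (φ : Set (V → Bool) → ℝ) (a : (V × Bool) × E → ℕ), DomW η φ a →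
    ((THw ω η (lit : V × Bool → Set (V → Bool)))^[R] (fun φ X => Γ (φ X))) φ Set.univ
      = ((cavgw (fun j : (V × Bool) × E => ω j.2 / (2 * (Fintype.card V : ℝ))))^[R]
          (fun a => Γ (∏ v, Wg (∏ e, (1 - η e) ^ a ((v, true), e))
            (∏ e, (1 - η e) ^ a ((v, false), e))))) a := by
  induction R with
  | zero =>
    intro φ a h
    simp only [Function.iterate_zero, id_eq]
    rw [← cube_false, h]
    simp [wg, sf]
  | succ R ih =>
    intro φ a h
    rw [Function.iterate_succ_apply', Function.iterate_succ_apply']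
    rw [THw_apply, cavgw_apply, Fintype.sum_prod_type, Finset.sum_comm]
    apply Finset.sum_congr rfl
    intro e _
    have hc : (Fintype.card (V × Bool) : ℝ) = 2 * (Fintype.card V : ℝ) := by
      rw [Fintype.card_prod, Fintype.card_bool]
      push_cast
      ring
    rw [hc, Finset.sum_div, Finset.mul_sum]
    apply Finset.sum_congr rfl
    intro l _
    rw [ih _ _ (domW_fld η h l e)]
    ring

theorem decouple_w {V E : Type} [Fintype V] [DecidableEq V] [Fintype E] [DecidableEq E]
    (ω η : E → ℝ) (Γ : ℝ → ℝ) (R : ℕ) :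
    ((THw ω η (lit : V × Bool → Set (V → Bool)))^[R] (fun φ X => Γ (φ X))) ind Set.univ
      = ((cavgw (fun j : (V × Bool) × E => ω j.2 / (2 * (Fintype.card V : ℝ))))^[R]
          (fun a => Γ (∏ v, Wg (∏ e, (1 - η e) ^ a ((v, true), e))
            (∏ e, (1 - η e) ^ a ((v, false), e))))) 0 :=
  decouple_w_aux ω η Γ R ind 0 (domW_ind η)

end Vale.Agent.P170
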