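import Vale.Agent.P170.UB2.Basic
import Vale.Agent.P170.UB.Poisson

/-!
Task F: weighted Poissonisation of the multinomial counts.
-/

namespace Vale.Agent.P170

open Finset

section
variable {J : Type} [Fintype J] [DecidableEq J]

theorem pww_prod_add_single (π : J → ℝ) (a : J → ℕ) (l : J) :
    ∏ j, π j ^ ((a + Pi.single l 1 : J → ℕ) j) = π l * ∏ j, π j ^ (a j) := by
  have h : ∀ j, π j ^ ((a + Pi.single l 1 : J → ℕ) j)
      = π j ^ (a j) * (if j = l then π l else 1) := by
    intro j
    by_cases hj : j = l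
    · subst hj
      simp [pow_succ]
    · simp [hj]
  simp_rw [h]
  rw [Finset.prod_mul_distrib, Finset.prod_ite_eq' univ l (fun _ => π l)]
  simp [mul_comm]

/-- exact multinomial formula for the iterated weighted average -/
theorem cavgw_iter_eq (π : J → ℝ) (F : (J → ℕ) → ℝ) (R : ℕ) (b : J → ℕ) :
    ((cavgw π)^[R] F) b = (R.factorial : ℝ) *
      ∑ a ∈ piAntidiag (univ : Finset J) R, pwt a * ((∏ j, π j ^ (a j)) * F (b + a)) := by
  induction R generalizing b with
  | zero => simp [pwt]
  | succ R ih =>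
    rw [Function.iterate_succ_apply']
    have hdef : cavgw π ((cavgw π)^[R] F) b
        = ∑ l : J, π l * ((cavgw π)^[R] F) (b + Pi.single l 1) := rfl
    rw [hdef]
    simp_rw [ih]
    have h := sum_piAntidiag_succ (fun a => (∏ j, π j ^ (a j)) * F (b + a)) R
    have h2 : ∑ l : J, π l * ((R.factorial : ℝ) * ∑ a ∈ piAntidiag (univ : Finset J) R,
          pwt a * ((∏ j, π j ^ (a j)) * F (b + Pi.single l 1 + a)))
        = (R.factorial : ℝ) * ∑ l : J, ∑ a ∈ piAntidiag (univ : Finset J) R,
          pwt a * ((∏ j, π j ^ ((a + Pi.single l 1 : J → ℕ) j)) * F (b + (a + Pi.single l 1))) := by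
      rw [Finset.mul_sum]
      refine Finset.sum_congr rfl fun l _ => ?_
      rw [mul_left_comm, Finset.mul_sum]
      congr 1
      refine Finset.sum_congr rfl fun a _ => ?_
      rw [pww_prod_add_single, add_assoc, add_comm (Pi.single l 1) a]
      ring
    rw [h2, h, Nat.factorial_succ]
    push_cast
    ring

theorem cavgw_iter_le (π : J → ℝ) (hπ : ∀ j, 0 ≤ π j)
    (F : (J → ℕ) → ℝ) (hF : ∀ a, 0 ≤ F a) (lam : ℝ) (hlam : 0 < lam) (R : ℕ) :
    ((cavgw π)^[R] F) 0 ≤ (R.factorial : ℝ) / lam ^ R *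
      ∑ a ∈ Fintype.piFinset (fun _ : J => range (R + 1)),
        (∏ j, (lam * π j) ^ (a j) / ((a j).factorial : ℝ)) * F a := by
  rw [cavgw_iter_eq]
  have h1 : (R.factorial : ℝ) *
      ∑ a ∈ piAntidiag (univ : Finset J) R, pwt a * ((∏ j, π j ^ (a j)) * F (0 + a))
      = (R.factorial : ℝ) / lam ^ R *
      ∑ a ∈ piAntidiag (univ : Finset J) R,
        (∏ j, (lam * π j) ^ (a j) / ((a j).factorial : ℝ)) * F a := by
    have h2 : ∀ a ∈ piAntidiag (univ : Finset J) R,
        (∏ j, (lam * π j) ^ (a j) / ((a j).factorial : ℝ)) * F a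
          = lam ^ R * (pwt a * ((∏ j, π j ^ (a j)) * F (0 + a))) := by
      intro a ha
      simp only [mem_piAntidiag, mem_univ, implies_true, and_true] at ha
      simp_rw [div_eq_mul_inv, mul_pow]
      rw [Finset.prod_mul_distrib, Finset.prod_mul_distrib, Finset.prod_pow_eq_pow_sum, ha,
        zero_add, pwt]
      ring
    rw [Finset.sum_congr rfl h2, ← Finset.mul_sum]
    field_simp
  rw [h1]
  refine mul_le_mul_of_nonneg_left ?_ (by positivity)
  refine Finset.sum_le_sum_of_subset_of_nonneg ?_ ?_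
  · intro a ha
    simp only [mem_piAntidiag, mem_univ, implies_true, and_true] at ha
    rw [Fintype.mem_piFinset]
    intro l
    rw [Finset.mem_range]
    have : a l ≤ ∑ x, a x := Finset.single_le_sum (fun _ _ => Nat.zero_le _) (mem_univ l)
    rw [ha] at this
    omega
  · intro a _ _
    refine mul_nonneg (Finset.prod_nonneg fun l _ => ?_) (hF a)
    have := hπ l
    positivity

end

/-- splitting a counter family over (literal, type) into pairs of counter families over
variables -/
def pairEquivW (V E : Type) : ((V × Bool) × E → ℕ) ≃ (V → (E → ℕ) × (E → ℕ)) where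
  toFun a v := (fun e => a ((v, true), e), fun e => a ((v, false), e))
  invFun x p := if p.1.2 then (x p.1.1).1 p.2 else (x p.1.1).2 p.2
  left_inv a := by
    funext ⟨⟨v, b⟩, e⟩
    cases b <;> simp
  right_inv x := by
    funext v
    simp

theorem poissonize_w {V E : Type} [Fintype V] [DecidableEq V] [Nonempty V] [Fintype E]
    [DecidableEq E] (ω : E → ℝ) (hω : ∀ e, 0 ≤ ω e) (g : (E → ℕ) → (E → ℕ) → ℝ)
    (hg : ∀ a b, 0 ≤ g a b) (μ : ℝ) (hμ : 0 < μ) (R : ℕ) :
    ((cavgw (fun j : (V × Bool) × E => ω j.2 / (2 * (Fintype.card V : ℝ))))^[R]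
        (fun a => ∏ v, g (fun e => a ((v, true), e)) (fun e => a ((v, false), e)))) 0
      ≤ (R.factorial : ℝ) / (μ * (2 * (Fintype.card V : ℝ))) ^ R *
        (∑ a ∈ Fintype.piFinset (fun _ : E => range (R + 1)),
          ∑ b ∈ Fintype.piFinset (fun _ : E => range (R + 1)),
            pw (fun e => μ * ω e) a * pw (fun e => μ * ω e) b * g a b) ^ Fintype.card V := by
  have hc : 0 < (Fintype.card V : ℝ) := by
    have : 0 < Fintype.card V := Fintype.card_pos
    positivity
  have h := cavgw_iter_le (J := (V × Bool) × E)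
    (fun j : (V × Bool) × E => ω j.2 / (2 * (Fintype.card V : ℝ)))
    (fun j => div_nonneg (hω _) (by positivity))
    (fun a => ∏ v, g (fun e => a ((v, true), e)) (fun e => a ((v, false), e)))
    (fun a => Finset.prod_nonneg fun v _ => hg _ _) (μ * (2 * (Fintype.card V : ℝ)))
    (by positivity) R
  refine h.trans (le_of_eq ?_)
  congr 1
  have hmul : ∀ j : (V × Bool) × E,
      μ * (2 * (Fintype.card V : ℝ)) * (ω j.2 / (2 * (Fintype.card V : ℝ))) = μ * ω j.2 := by
    intro j
    field_simp
  simp_rw [hmul]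
  set φ : (E → ℕ) × (E → ℕ) → ℝ := fun p =>
    pw (fun e => μ * ω e) p.1 * pw (fun e => μ * ω e) p.2 * g p.1 p.2 with hφ
  have h1 : ∑ a ∈ Fintype.piFinset (fun _ : E => range (R + 1)),
      ∑ b ∈ Fintype.piFinset (fun _ : E => range (R + 1)),
        pw (fun e => μ * ω e) a * pw (fun e => μ * ω e) b * g a b
      = ∑ p ∈ Fintype.piFinset (fun _ : E => range (R + 1)) ×ˢ
          Fintype.piFinset (fun _ : E => range (R + 1)), φ p := by
    rw [Finset.sum_product]
  rw [h1, ← Finset.card_univ, ← Finset.prod_const, Finset.prod_univ_sum]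
  refine Finset.sum_equiv (pairEquivW V E) ?_ ?_
  · intro a
    simp only [Fintype.mem_piFinset, Finset.mem_product, pairEquivW, Equiv.coe_fn_mk, Prod.forall,
      Bool.forall_bool]
    constructor
    · intro ha v
      exact ⟨fun e => (ha v).2 e, fun e => (ha v).1 e⟩
    · intro ha v
      exact ⟨fun e => (ha v).2 e, fun e => (ha v).1 e⟩
  · intro a _
    rw [Fintype.prod_prod_type, Fintype.prod_prod_type, ← Finset.prod_mul_distrib]
    refine Finset.prod_congr rfl fun v _ => ?_
    simp only [hφ, pairEquivW, Fintype.prod_bool, Equiv.coe_fn_mk, pw]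

end Vale.Agent.P170
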