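import Vale.Agent.P170.UB2.RecurW
import Vale.Agent.P170.UB2.PoissonW
import Vale.Agent.P170.UB2.DecoupleW
import Vale.Agent.P170.UB.Field

namespace Vale.Agent.P170

open Finset

section cavgw
variable {J : Type} [Fintype J] [DecidableEq J]

lemma cavgw_mono (π : J → ℝ) (hπ : ∀ j, 0 ≤ π j) {F F' : (J → ℕ) → ℝ} (h : ∀ a, F a ≤ F' a)
    (R : ℕ) : ∀ a, ((cavgw π)^[R] F) a ≤ ((cavgw π)^[R] F') a := by
  induction R with
  | zero => exact h
  | succ R ih =>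
    intro a
    rw [Function.iterate_succ_apply', Function.iterate_succ_apply']
    have e : ∀ G : (J → ℕ) → ℝ, cavgw π G a = ∑ j : J, π j * G (a + Pi.single j 1) :=
      fun G => rfl
    rw [e, e]
    exact Finset.sum_le_sum (fun j _ => mul_le_mul_of_nonneg_left (ih _) (hπ j))

lemma cavgw_smul (π : J → ℝ) (c : ℝ) (F : (J → ℕ) → ℝ) (R : ℕ) :
    ∀ a, ((cavgw π)^[R] (fun a => c * F a)) a = c * ((cavgw π)^[R] F) a := by
  induction R with
  | zero => intro a; rfl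
  | succ R ih =>
    intro a
    rw [Function.iterate_succ_apply', Function.iterate_succ_apply']
    have e : ∀ G : (J → ℕ) → ℝ, cavgw π G a = ∑ j : J, π j * G (a + Pi.single j 1) :=
      fun G => rfl
    rw [e, e, Finset.sum_congr rfl (fun j _ => by rw [ih]), Finset.mul_sum]
    refine Finset.sum_congr rfl (fun j _ => ?_)
    ring

end cavgw

lemma double_sum_SP' {ι : Type} (s : Finset ι) (t : Finset ℕ) (w y : ι → ℝ) (c : ℕ → ℝ) :
    ∑ i ∈ s, ∑ j ∈ s, w i * w j * (1 - ∑ p ∈ t, c p * (y i * y j) ^ (p + 1))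
      = (∑ i ∈ s, w i) ^ 2 - ∑ p ∈ t, c p * (∑ i ∈ s, w i * y i ^ (p + 1)) ^ 2 := by
  have h1 : ∀ i j, w i * w j * (1 - ∑ p ∈ t, c p * (y i * y j) ^ (p + 1))
      = w i * w j - ∑ p ∈ t, c p * ((w i * y i ^ (p + 1)) * (w j * y j ^ (p + 1))) := by
    intro i j
    rw [mul_sub, mul_one, Finset.mul_sum]
    congr 1
    refine Finset.sum_congr rfl (fun p _ => ?_)
    rw [mul_pow]; ring
  simp only [h1, Finset.sum_sub_distrib]
  congr 1
  · rw [sq, Finset.sum_mul_sum]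
  · have h2 : ∀ i ∈ s, ∑ j ∈ s, ∑ p ∈ t, c p * ((w i * y i ^ (p + 1)) * (w j * y j ^ (p + 1)))
        = ∑ p ∈ t, ∑ j ∈ s, c p * ((w i * y i ^ (p + 1)) * (w j * y j ^ (p + 1))) :=
      fun i _ => Finset.sum_comm
    rw [Finset.sum_congr rfl h2, Finset.sum_comm]
    refine Finset.sum_congr rfl (fun p _ => ?_)
    rw [sq, Finset.sum_mul_sum, Finset.mul_sum]
    refine Finset.sum_congr rfl (fun i _ => ?_)
    rw [Finset.mul_sum]

lemma sum_pw_le {E : Type} [Fintype E] [DecidableEq E] (ν : E → ℝ) (hν : ∀ e, 0 ≤ ν e) (R : ℕ) :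
    ∑ a ∈ Fintype.piFinset (fun _ : E => range (R + 1)), pw ν a ≤ Real.exp (∑ e, ν e) := by
  unfold pw
  rw [← Finset.prod_univ_sum (fun _ : E => range (R + 1))
    (fun e i => ν e ^ i / (i.factorial : ℝ)), Real.exp_sum]
  apply Finset.prod_le_prod
  · intro e _
    exact Finset.sum_nonneg (fun i _ => div_nonneg (pow_nonneg (hν e) _) (Nat.cast_nonneg _))
  · intro e _
    exact Real.sum_le_exp_of_nonneg (hν e) _

lemma pw_nonneg {E : Type} [Fintype E] (ν : E → ℝ) (hν : ∀ e, 0 ≤ ν e) (a : E → ℕ) :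
    0 ≤ pw ν a := by
  unfold pw
  exact Finset.prod_nonneg (fun e _ => div_nonneg (pow_nonneg (hν e) _) (Nat.cast_nonneg _))

lemma Xi_le_w {E : Type} [Fintype E] [DecidableEq E] (r : ℝ) (ν x : E → ℝ) (P R : ℕ)
    (hr0 : 0 ≤ r) (hr1 : r ≤ 1) (hν : ∀ e, 0 ≤ ν e) (aLow : ℕ → ℝ)
    (ha0 : ∀ p < P, 0 ≤ aLow p) (ha : ∀ p < P, aLow p ≤ boxMom ν x R (p + 1)) :
    ∑ a ∈ Fintype.piFinset (fun _ : E => range (R + 1)),
      ∑ b ∈ Fintype.piFinset (fun _ : E => range (R + 1)),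
        pw ν a * pw ν b * SP r P ((1 - ∏ e, x e ^ (a e)) * (1 - ∏ e, x e ^ (b e)))
      ≤ Real.exp (2 * ∑ e, ν e) - ∑ p ∈ range P, bc r p * aLow p ^ 2 := by
  unfold SP
  rw [double_sum_SP' (Fintype.piFinset (fun _ : E => range (R + 1))) (range P) (pw ν)
    (fun a => 1 - ∏ e, x e ^ (a e)) (bc r)]
  have h1 := sum_pw_le ν hν R
  have h0 : 0 ≤ ∑ a ∈ Fintype.piFinset (fun _ : E => range (R + 1)), pw ν a :=
    Finset.sum_nonneg (fun a _ => pw_nonneg ν hν a)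
  have h2 : (∑ a ∈ Fintype.piFinset (fun _ : E => range (R + 1)), pw ν a) ^ 2
      ≤ Real.exp (2 * ∑ e, ν e) := by
    have e : Real.exp (2 * ∑ e, ν e) = Real.exp (∑ e, ν e) ^ 2 := by
      rw [← Real.exp_nat_mul]; norm_num
    rw [e]
    exact pow_le_pow_left₀ h0 h1 2
  have h3 : ∑ p ∈ range P, bc r p * aLow p ^ 2
      ≤ ∑ p ∈ range P, bc r p *
        (∑ a ∈ Fintype.piFinset (fun _ : E => range (R + 1)),
          pw ν a * (1 - ∏ e, x e ^ (a e)) ^ (p + 1)) ^ 2 := by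
    refine Finset.sum_le_sum (fun p hp => ?_)
    rw [Finset.mem_range] at hp
    apply mul_le_mul_of_nonneg_left _ (bc_nonneg r hr0 hr1 p)
    exact pow_le_pow_left₀ (ha0 p hp) (ha p hp) 2
  linarith

section field
variable {V : Type} [DecidableEq V] [Fintype V] [Nonempty V]

/-- bound for the pure-field end of the interpolation, several strengths -/
lemma field_bound_w {E : Type} [Fintype E] [DecidableEq E] (ω η : E → ℝ) (hω : ∀ e, 0 ≤ ω e)
    (hsum : ∑ e, ω e = 1) (hη0 : ∀ e, 0 ≤ η e) (hη1 : ∀ e, η e ≤ 1) (μ : ℝ) (hμ : 0 < μ)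
    (N₀ q P R : ℕ) (hq : 1 ≤ q) (aLow : ℕ → ℝ) (ha0 : ∀ p < P, 0 ≤ aLow p)
    (ha : ∀ p < P, aLow p ≤ boxMom (fun e => μ * ω e) (fun e => 1 - η e) R (p + 1)) (Y : ℝ)
    (hY : Real.exp (2 * μ) - ∑ p ∈ range P, bc (1 / (q : ℝ)) p * aLow p ^ 2 ≤ Y) :
    ((THw ω η (lit : V × Bool → Set (V → Bool)))^[R] (Psi0 (N₀ ^ q))) ind Set.univ
      ≤ N₀ * ((R.factorial : ℝ) / (μ * (2 * (Fintype.card V : ℝ))) ^ R * Y ^ Fintype.card V) := by
  have hq0 : (0 : ℝ) < q := by exact_mod_cast hq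
  have hr0 : (0 : ℝ) ≤ 1 / (q : ℝ) := by positivity
  have hr1 : 1 / (q : ℝ) ≤ 1 := by
    rw [div_le_one hq0]; exact_mod_cast hq
  set x : E → ℝ := fun e => 1 - η e with hx
  have hx0 : ∀ e, 0 ≤ x e := fun e => by simp only [hx]; linarith [hη1 e]
  have hx1 : ∀ e, x e ≤ 1 := fun e => by simp only [hx]; linarith [hη0 e]
  have e0 : (Psi0 (N₀ ^ q) : (Set (V → Bool) → ℝ) → Set (V → Bool) → ℝ)
      = fun φ X => (GN (N₀ ^ q)) (φ X) := rfl
  rw [e0, decouple_w ω η (GN (N₀ ^ q)) R]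
  set g : (E → ℕ) → (E → ℕ) → ℝ := fun a b =>
    SP (1 / (q : ℝ)) P ((1 - ∏ e, x e ^ (a e)) * (1 - ∏ e, x e ^ (b e))) with hg
  have hprod : ∀ a : E → ℕ, 0 ≤ ∏ e, x e ^ (a e) ∧ ∏ e, x e ^ (a e) ≤ 1 := by
    intro a
    constructor
    · exact Finset.prod_nonneg (fun e _ => pow_nonneg (hx0 e) _)
    · exact Finset.prod_le_one (fun e _ => pow_nonneg (hx0 e) _)
        (fun e _ => pow_le_one₀ (hx0 e) (hx1 e))
  have hy : ∀ a b : E → ℕ, 0 ≤ (1 - ∏ e, x e ^ (a e)) * (1 - ∏ e, x e ^ (b e)) ∧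
      (1 - ∏ e, x e ^ (a e)) * (1 - ∏ e, x e ^ (b e)) ≤ 1 := by
    intro a b
    obtain ⟨a3, a1⟩ := hprod a
    obtain ⟨a4, a2⟩ := hprod b
    constructor
    · exact mul_nonneg (by linarith) (by linarith)
    · nlinarith
  have hg0 : ∀ a b, 0 ≤ g a b := fun a b => SP_nonneg q hq P _ (hy a b).1 (hy a b).2
  have hWg : ∀ s t : ℝ, Wg s t = 1 - (1 - s) * (1 - t) := by
    intro s t; unfold Wg; ring
  have hF : ∀ a : (V × Bool) × E → ℕ,
      GN (N₀ ^ q) (∏ v, Wg (∏ e, x e ^ a ((v, true), e)) (∏ e, x e ^ a ((v, false), e)))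
        ≤ N₀ * ∏ v, g (fun e => a ((v, true), e)) (fun e => a ((v, false), e)) := by
    intro a
    have hW0 : ∀ v, 0 ≤ Wg (∏ e, x e ^ a ((v, true), e)) (∏ e, x e ^ a ((v, false), e)) := by
      intro v; rw [hWg]
      linarith [(hy (fun e => a ((v, true), e)) (fun e => a ((v, false), e))).2]
    have hW1 : ∀ v, Wg (∏ e, x e ^ a ((v, true), e)) (∏ e, x e ^ a ((v, false), e)) ≤ 1 := by
      intro v; rw [hWg]
      linarith [(hy (fun e => a ((v, true), e)) (fun e => a ((v, false), e))).1]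
    apply GN_le_of_pow N₀ q hq
    · exact Finset.prod_nonneg (fun v _ => hW0 v)
    · exact Finset.prod_le_one (fun v _ => hW0 v) (fun v _ => hW1 v)
    · exact Finset.prod_nonneg (fun v _ => hg0 _ _)
    · rw [← Finset.prod_pow]
      apply Finset.prod_le_prod (fun v _ => hW0 v)
      intro v _
      rw [hWg]
      exact SP_pow_ge q hq P _ (hy _ _).1 (hy _ _).2
  have hπ : ∀ j : (V × Bool) × E, 0 ≤ ω j.2 / (2 * (Fintype.card V : ℝ)) :=
    fun j => div_nonneg (hω _) (by positivity)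
  refine (cavgw_mono _ hπ hF R 0).trans ?_
  rw [cavgw_smul]
  apply mul_le_mul_of_nonneg_left _ (Nat.cast_nonneg _)
  refine (poissonize_w ω hω g hg0 μ hμ R).trans ?_
  apply mul_le_mul_of_nonneg_left _ (by positivity)
  have hν : ∀ e, 0 ≤ μ * ω e := fun e => mul_nonneg hμ.le (hω e)
  apply pow_le_pow_left₀
  · exact Finset.sum_nonneg (fun a _ => Finset.sum_nonneg (fun b _ =>
      mul_nonneg (mul_nonneg (pw_nonneg _ hν a) (pw_nonneg _ hν b)) (hg0 a b)))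
  · have h := Xi_le_w (1 / (q : ℝ)) (fun e => μ * ω e) x P R hr0 hr1 hν aLow ha0 ha
    have e1 : ∑ e, μ * ω e = μ := by rw [← Finset.mul_sum, hsum, mul_one]
    rw [e1] at h
    exact h.trans hY

end field

end Vale.Agent.P170
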