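import Vale.Agent.P170.UB2.Basic
import Vale.Agent.P170.UB.Pieces

/-!
Task H: lower bound for the pure clause system with random rescalings (Markov inequality in
operator form).
-/

namespace Vale.Agent.P170

open Finset

theorem GN_nonneg' (N : ℕ) (z : ℝ) (hz0 : 0 ≤ z) (hz1 : z ≤ 1) : 0 ≤ GN N z := by
  unfold GN
  have : (1 - z) ^ N ≤ 1 := pow_le_one₀ (by linarith) (by linarith)
  linarith

/-- logarithmic lower bound for `GN` -/
theorem GN_ge_log (N : ℕ) (hN : 2 ≤ N) (s : ℝ) (hs0 : 0 < s) (hs1 : s ≤ 1) :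
    1 / 2 * (1 + Real.log s / Real.log N) ≤ GN N s := by
  have hN' : (1 : ℝ) < N := by exact_mod_cast (by omega : 1 < N)
  have hlogN : 0 < Real.log N := Real.log_pos hN'
  rcases le_or_gt 1 ((N : ℝ) * s) with h | h
  · have h1 := GN_ge_half N s hs0.le hs1 h
    have h2 : Real.log s / Real.log N ≤ 0 :=
      div_nonpos_of_nonpos_of_nonneg (Real.log_nonpos hs0.le hs1) hlogN.le
    linarith
  · have h1 := GN_nonneg' N s hs0.le hs1
    have h2 : Real.log ((N : ℝ) * s) < 0 := Real.log_neg (by positivity) h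
    rw [Real.log_mul (by positivity) hs0.ne'] at h2
    have h3 : Real.log s / Real.log N < -1 := by
      rw [div_lt_iff₀ hlogN]
      linarith
    linarith

theorem TDw_apply {Ω E' : Type} [Fintype E'] (ω' θ' : E' → ℝ)
    (Ψ : (Set Ω → ℝ) → Set Ω → ℝ) (φ : Set Ω → ℝ) (X : Set Ω) :
    TDw ω' θ' Ψ φ X = ∑ e : E', ω' e * Ψ (fun Y => θ' e * φ Y) X := rfl

theorem TC_apply {Ω C : Type} [Fintype C] (hc : C → Set Ω)
    (Ψ : (Set Ω → ℝ) → Set Ω → ℝ) (φ : Set Ω → ℝ) (X : Set Ω) :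
    TC hc Ψ φ X = (∑ c : C, Ψ φ (X ∩ hc c)) / (Fintype.card C : ℝ) := rfl

theorem scale_aux {Ω E' : Type} [Fintype E'] (ω' θ' : E' → ℝ)
    (hω : ∀ e, 0 ≤ ω' e) (hsum : ∑ e, ω' e = 1) (hθ0 : ∀ e, 0 < θ' e) (hθ1 : ∀ e, θ' e ≤ 1)
    (N : ℕ) (hN : 2 ≤ N) (d : ℕ) :
    ∀ (s : ℝ), 0 < s → s ≤ 1 → ∀ X : Set Ω,
    1 / 2 * (1 + (Real.log s - d * (∑ e, ω' e * (-Real.log (θ' e)))) / Real.log N) * ind X
      ≤ ((TDw ω' θ')^[d] (fun φ X => GN N (φ X))) (fun Y => s * ind Y) X := by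
  induction d with
  | zero =>
    intro s hs0 hs1 X
    simp only [Function.iterate_zero, id_eq, Nat.cast_zero, zero_mul, sub_zero]
    by_cases hX : X.Nonempty
    · rw [ind_of_nonempty hX, mul_one, mul_one]
      exact GN_ge_log N hN s hs0 hs1
    · rw [ind_of_not_nonempty hX]
      simp [GN]
  | succ d ih =>
    intro s hs0 hs1 X
    rw [Function.iterate_succ_apply', TDw_apply]
    set Lam := ∑ e, ω' e * (-Real.log (θ' e)) with hLam
    have hstep : ∀ e, ω' e * (1 / 2 * (1 + (Real.log (θ' e * s) - d * Lam) / Real.log N) * ind X)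
        ≤ ω' e * ((TDw ω' θ')^[d] (fun φ X => GN N (φ X))) (fun Y => θ' e * (s * ind Y)) X := by
      intro e
      apply mul_le_mul_of_nonneg_left _ (hω e)
      have h1 := ih (θ' e * s) (mul_pos (hθ0 e) hs0)
        (mul_le_one₀ (hθ1 e) hs0.le hs1) X
      have e1 : (fun Y : Set Ω => θ' e * (s * ind Y)) = (fun Y => θ' e * s * ind Y) := by
        funext Y
        ring
      rw [e1]
      exact h1
    refine le_trans (le_of_eq ?_) (Finset.sum_le_sum (fun e _ => hstep e))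
    have e2 : ∀ e, ω' e * (1 / 2 * (1 + (Real.log (θ' e * s) - d * Lam) / Real.log N) * ind X)
        = ω' e * (1 / 2 * (1 + (Real.log s - d * Lam) / Real.log N) * ind X)
          - (ω' e * (-Real.log (θ' e))) * (1 / 2 / Real.log N * ind X) := by
      intro e
      rw [Real.log_mul (hθ0 e).ne' hs0.ne']
      ring
    simp only [e2]
    rw [Finset.sum_sub_distrib, ← Finset.sum_mul, ← Finset.sum_mul, hsum, ← hLam]
    push_cast
    ring

theorem scale_lower {Ω C E' : Type} [Fintype C] [Fintype E'] (hc : C → Set Ω) (ω' θ' : E' → ℝ)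
    (hω : ∀ e, 0 ≤ ω' e) (hsum : ∑ e, ω' e = 1) (hθ0 : ∀ e, 0 < θ' e) (hθ1 : ∀ e, θ' e ≤ 1)
    (N : ℕ) (hN : 2 ≤ N) (t d : ℕ) (X : Set Ω) :
    1 / 2 * (1 - d * (∑ e, ω' e * (-Real.log (θ' e))) / Real.log N) * iter hc t X
      ≤ ((TC hc)^[t] ((TDw ω' θ')^[d] (fun φ X => GN N (φ X)))) ind X := by
  set κ := 1 / 2 * (1 - d * (∑ e, ω' e * (-Real.log (θ' e))) / Real.log N) with hκ
  have h0 : ∀ X : Set Ω, κ * ind X ≤ ((TDw ω' θ')^[d] (fun φ X => GN N (φ X))) ind X := by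
    intro X
    have h1 := scale_aux (Ω := Ω) ω' θ' hω hsum hθ0 hθ1 N hN d 1 one_pos le_rfl X
    have e1 : (fun Y : Set Ω => (1 : ℝ) * ind Y) = ind := by
      funext Y
      ring
    rw [e1, Real.log_one] at h1
    refine le_trans (le_of_eq ?_) h1
    rw [hκ]
    ring
  induction t generalizing X with
  | zero =>
    simp only [Function.iterate_zero, id_eq]
    exact h0 X
  | succ t ih =>
    rw [Function.iterate_succ_apply', TC_apply, iter_succ]
    unfold avg
    rw [← mul_div_assoc, Finset.mul_sum]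
    apply div_le_div_of_nonneg_right _ (Nat.cast_nonneg _)
    apply Finset.sum_le_sum
    intro c _
    exact ih (X ∩ hc c)

end Vale.Agent.P170
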