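import Vale.Agent.P170.UB2.FieldW
import Vale.Agent.P170.UB2.ScaleLower
import Vale.Agent.P170.UB.Main

namespace Vale.Agent.P170

open Finset Filter Topology

/-- choice of the number of inner samples -/
lemma exists_N0_w (Lam dl : ℝ) (hLam : 0 ≤ Lam) (hdl : 0 < dl) (q d : ℕ) (hq : 1 ≤ q) :
    ∃ N₀ : ℕ, 2 ≤ N₀ ^ q ∧ (d : ℝ) * Lam / Real.log ((N₀ ^ q : ℕ) : ℝ) ≤ 1 / (1 + dl) ∧
      (N₀ : ℝ) ≤ 3 * Real.exp ((1 + dl) * (d * Lam) / q) := by
  have hq0 : (0 : ℝ) < q := by exact_mod_cast hq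
  set z := (1 + dl) * (d * Lam) / q with hz
  have hz0 : 0 ≤ z := by rw [hz]; positivity
  have hexp1 : 1 ≤ Real.exp z := Real.one_le_exp hz0
  set N₀ := ⌈Real.exp z⌉₊ + 1 with hN₀
  have h2 : 2 ≤ N₀ := by
    have : 1 ≤ ⌈Real.exp z⌉₊ := Nat.one_le_ceil_iff.2 (Real.exp_pos z)
    omega
  have hN₀r : Real.exp z ≤ (N₀ : ℝ) := by
    rw [hN₀]; push_cast
    have := Nat.le_ceil (Real.exp z)
    linarith
  have hN₀pos : (0 : ℝ) < N₀ := lt_of_lt_of_le (Real.exp_pos z) hN₀r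
  refine ⟨N₀, ?_, ?_, ?_⟩
  · calc 2 ≤ N₀ := h2
      _ = N₀ ^ 1 := (pow_one _).symm
      _ ≤ N₀ ^ q := Nat.pow_le_pow_right (by omega) hq
  · have hlog1 : z ≤ Real.log N₀ := by
      rw [Real.le_log_iff_exp_le hN₀pos]; exact hN₀r
    have hlog2 : 0 < Real.log N₀ := Real.log_pos (by exact_mod_cast h2)
    have hlogN : Real.log ((N₀ ^ q : ℕ) : ℝ) = q * Real.log N₀ := by
      push_cast
      rw [Real.log_pow]
    rw [hlogN, div_le_div_iff₀ (by positivity) (by positivity)]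
    have : (q : ℝ) * z ≤ q * Real.log N₀ := mul_le_mul_of_nonneg_left hlog1 hq0.le
    have e : (q : ℝ) * z = (1 + dl) * (d * Lam) := by rw [hz]; field_simp
    rw [e] at this
    linarith
  · have : (⌈Real.exp z⌉₊ : ℝ) < Real.exp z + 1 := Nat.ceil_lt_add_one (Real.exp_pos z).le
    rw [hN₀]; push_cast
    linarith

/-- explicit bound for finite `n`, several field strengths -/
theorem finite_bound_w (m : ℕ) (hm : 1 ≤ m) (c₀ : ℝ) (hc₀ : 0 < c₀)
    {E E' : Type} [Fintype E] [DecidableEq E] [Fintype E'] (ω η : E → ℝ) (ω' ϑ : E' → ℝ)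
    (qm : ℕ → ℝ) (hq0 : ∀ p, 0 ≤ qm p) (hmom : ∀ p, ∑ e, ω e * η e ^ p = qm p ^ m)
    (hmom' : ∀ p, ∑ e, ω' e * ϑ e ^ p = qm p ^ (m + 1))
    (hsum : ∑ e, ω e = 1) (hsum' : ∑ e, ω' e = 1) (hω : ∀ e, 0 ≤ ω e) (hω' : ∀ e, 0 ≤ ω' e)
    (hη0 : ∀ e, 0 ≤ η e) (hη1 : ∀ e, η e ≤ 1)
    (θmin : ℝ) (hθmin : 0 < θmin) (hϑ0 : ∀ e, 0 ≤ ϑ e) (hϑ1 : ∀ e, θmin ≤ 1 - ϑ e)
    (q P : ℕ) (hq : 1 ≤ q) (aLow : ℕ → ℝ) (R₀ : ℕ) (ha0 : ∀ p < P, 0 ≤ aLow p)
    (ha : ∀ p < P, ∀ R, R₀ ≤ R →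
      aLow p ≤ boxMom (fun e => ((m : ℝ) + 1) * c₀ / 2 * ω e) (fun e => 1 - η e) R (p + 1))
    (B dl : ℝ) (hB0 : 0 < B) (hdl : 0 < dl)
    (hB : Real.exp (((m : ℝ) + 1) * c₀) - ∑ p ∈ range P, bc (1 / (q : ℝ)) p * aLow p ^ 2
      ≤ B * Real.exp (((m : ℝ) + 1) * c₀))
    (n : ℕ) (hn1 : m + 1 ≤ n)
    (hn2 : 2 * (((m : ℝ) + 1) ^ 2 / (2 ^ (m + 1) * θmin * m)) ≤ n)
    (hn3 : R₀ ≤ ⌊c₀ * n⌋₊ + m * ⌊c₀ * n⌋₊) (hn4 : 1 ≤ ⌊c₀ * n⌋₊ + m * ⌊c₀ * n⌋₊) :
    prV (Fin n) (m + 1) ⌊c₀ * n⌋₊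
      ≤ 6 * ((1 + dl) / dl) * Real.exp (2 * (((m : ℝ) + 1) ^ 2 / (2 ^ (m + 1) * θmin * m)) * (m * c₀)
            + ((m : ℝ) + 1) + 1)
          * (((⌊c₀ * n⌋₊ + m * ⌊c₀ * n⌋₊ : ℕ) : ℝ) + 1) * ((⌊c₀ * n⌋₊ + m * ⌊c₀ * n⌋₊ : ℕ) : ℝ)
          * Real.exp (n * (Real.log B
              + (1 + dl) * (m * c₀ / q) * ∑ e, ω' e * (-Real.log (1 - ϑ e)))) := by
  set Lam := ∑ e, ω' e * (-Real.log (1 - ϑ e)) with hLam
  set a := ((m : ℝ) + 1) ^ 2 / (2 ^ (m + 1) * θmin * m) with ha'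
  set M := ⌊c₀ * n⌋₊ with hM
  set R := M + m * M with hR
  set K := (m : ℝ) + 1 with hK
  set p := prV (Fin n) (m + 1) M with hp
  have hp0 : 0 ≤ p := prV_nonneg _ _ _
  have hm0 : (0 : ℝ) < m := by exact_mod_cast hm
  have hn0 : 0 < n := by omega
  have hn0' : (0 : ℝ) < n := by exact_mod_cast hn0
  have hq0' : (0 : ℝ) < q := by exact_mod_cast hq
  have hθ0 : ∀ e, 0 < 1 - ϑ e := fun e => lt_of_lt_of_le hθmin (hϑ1 e)
  have hθ1 : ∀ e, 1 - ϑ e ≤ 1 := fun e => by linarith [hϑ0 e]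
  have hLam0 : 0 ≤ Lam := by
    rw [hLam]
    refine Finset.sum_nonneg (fun e _ => mul_nonneg (hω' e) ?_)
    have := Real.log_nonpos (hθ0 e).le (hθ1 e)
    linarith
  have ha0' : 0 ≤ a := by rw [ha']; positivity
  have hM1 : (M : ℝ) ≤ c₀ * n := Nat.floor_le (by positivity)
  have hM2 : c₀ * n < M + 1 := Nat.lt_floor_add_one _
  have hcard : Fintype.card (Fin n) = n := Fintype.card_fin n
  have hne : Nonempty (Fin n) := ⟨⟨0, hn0⟩⟩
  have hRK : (R : ℝ) = K * M := by rw [hR, hK]; push_cast; ring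
  -- kappa
  have hκeq : (m : ℝ) - epsn n m / θmin = m * (1 - a / n) := by
    unfold epsn
    rw [ha', hK]
    field_simp
  have han : a / n ≤ 1 / 2 := by
    rw [div_le_iff₀ hn0']; linarith
  have hκ : 0 ≤ (m : ℝ) - epsn (Fintype.card (Fin n)) m / θmin := by
    rw [hcard, hκeq]
    exact mul_nonneg hm0.le (by linarith)
  obtain ⟨N₀, hN1, hN2, hN3⟩ := exists_N0_w Lam dl hLam0 hdl q (m * M) hq
  have h1 := interp_bound_w (V := Fin n) m (by rw [hcard]; exact hn1) ω η ω' ϑ qm hq0 hmom hmom'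
    hsum hsum' hω hω' hη0 hη1 θmin hθmin hϑ0 hϑ1 hκ (N₀ ^ q) M (m * M)
  rw [hcard, hκeq, ← hR] at h1
  have hsl := scale_lower (hset : Clause (Fin n) (m + 1) → Set (Fin n → Bool)) ω'
    (fun e => 1 - ϑ e) hω' hsum' hθ0 hθ1 (N₀ ^ q) hN1 M (m * M) Set.univ
  rw [← hLam] at hsl
  have hsl2 : 1 / 2 * (dl / (1 + dl)) * p
      ≤ ((TC (hset : Clause (Fin n) (m + 1) → Set (Fin n → Bool)))^[M]
            ((TDw ω' (fun e => 1 - ϑ e))^[m * M] (Psi0 (N₀ ^ q)))) ind Set.univ := by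
    refine le_trans ?_ hsl
    apply mul_le_mul_of_nonneg_right _ hp0
    apply mul_le_mul_of_nonneg_left _ (by norm_num)
    have e : dl / (1 + dl) = 1 - 1 / (1 + dl) := by field_simp; ring
    rw [e]
    linarith
  have hμ : 0 < K * c₀ / 2 := by rw [hK]; positivity
  have h2 := field_bound_w (V := Fin n) ω η hω hsum hη0 hη1 (K * c₀ / 2) hμ N₀ q P R hq aLow ha0
    (fun p hp => ha p hp R hn3) (B * Real.exp (K * c₀))
    (by
      have e : 2 * (K * c₀ / 2) = K * c₀ := by ring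
      rw [e]; exact hB)
  rw [hcard] at h2
  set H := ((THw ω η (lit : Fin n × Bool → Set (Fin n → Bool)))^[R] (Psi0 (N₀ ^ q)))
    ind Set.univ with hH
  set y := K * c₀ * n with hy
  have hy1 : (R : ℝ) ≤ y := by
    rw [hRK, hy, mul_assoc]
    exact mul_le_mul_of_nonneg_left hM1 (by rw [hK]; positivity)
  have hy2 : y ≤ R + K := by
    rw [hRK, hy, mul_assoc]
    have : K * (c₀ * n) ≤ K * (M + 1) := mul_le_mul_of_nonneg_left hM2.le (by rw [hK]; positivity)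
    linarith
  have h3 := stirling_factor R hn4 K y hy1 hy2
  have h4 : H ≤ N₀ * (Real.exp (K + 1) * R * B ^ n) := by
    refine h2.trans ?_
    apply mul_le_mul_of_nonneg_left _ (Nat.cast_nonneg _)
    have e1 : K * c₀ / 2 * (2 * (n : ℝ)) = y := by rw [hy]; ring
    have e2 : (B * Real.exp (K * c₀)) ^ n = B ^ n * Real.exp y := by
      rw [mul_pow, ← Real.exp_nat_mul, hy]
      congr 2
      ring
    rw [e1, e2]
    calc (R.factorial : ℝ) / y ^ R * (B ^ n * Real.exp y)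
        = ((R.factorial : ℝ) / y ^ R * Real.exp y) * B ^ n := by ring
      _ ≤ (Real.exp (K + 1) * R) * B ^ n := mul_le_mul_of_nonneg_right h3 (by positivity)
  have h5 := choose_mode (m + 1) M (by omega)
  have e3 : (m + 1) * M = R := by rw [hR]; ring
  have e4 : (m + 1 - 1) * M = m * M := by simp
  rw [e3, e4] at h5
  have e5 : (((m + 1 : ℕ) : ℝ)) = K := by rw [hK]; push_cast; ring
  rw [e5] at h5
  have e6 : K - 1 = m := by rw [hK]; ring
  rw [e6] at h5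
  have hCb : (0 : ℝ) < (R.choose M : ℝ) := by
    have : 0 < R.choose M := Nat.choose_pos (by rw [hR]; omega)
    exact_mod_cast this
  have hH0 : 0 ≤ N₀ * (Real.exp (K + 1) * R * B ^ n) := by positivity
  have hmp : (0 : ℝ) < (m : ℝ) ^ (m * M) := by positivity
  have h1a : 0 ≤ (1 - a / n) := by linarith
  have h6 : (R.choose M : ℝ) * ((m : ℝ) * (1 - a / n)) ^ (m * M) * (1 / 2 * (dl / (1 + dl)) * p)
      ≤ (((R : ℝ) + 1) * ((R.choose M : ℝ) * (m : ℝ) ^ (m * M)))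
        * (N₀ * (Real.exp (K + 1) * R * B ^ n)) := by
    refine le_trans (mul_le_mul_of_nonneg_left hsl2 (by positivity)) (h1.trans ?_)
    calc K ^ R * H ≤ K ^ R * (N₀ * (Real.exp (K + 1) * R * B ^ n)) :=
          mul_le_mul_of_nonneg_left h4 (by rw [hK]; positivity)
      _ ≤ _ := mul_le_mul_of_nonneg_right h5 hH0
  have h7 : (1 - a / n) ^ (m * M) * (1 / 2 * (dl / (1 + dl)) * p)
      ≤ ((R : ℝ) + 1) * (N₀ * (Real.exp (K + 1) * R * B ^ n)) := by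
    rw [mul_pow] at h6
    have hpos : 0 < (R.choose M : ℝ) * (m : ℝ) ^ (m * M) := by positivity
    have e7 : (R.choose M : ℝ) * ((m : ℝ) ^ (m * M) * (1 - a / n) ^ (m * M))
          * (1 / 2 * (dl / (1 + dl)) * p)
        = ((R.choose M : ℝ) * (m : ℝ) ^ (m * M))
          * ((1 - a / n) ^ (m * M) * (1 / 2 * (dl / (1 + dl)) * p)) := by ring
    have e8 : (((R : ℝ) + 1) * ((R.choose M : ℝ) * (m : ℝ) ^ (m * M)))
          * (N₀ * (Real.exp (K + 1) * R * B ^ n))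
        = ((R.choose M : ℝ) * (m : ℝ) ^ (m * M))
          * (((R : ℝ) + 1) * (N₀ * (Real.exp (K + 1) * R * B ^ n))) := by ring
    rw [e7, e8] at h6
    exact le_of_mul_le_mul_left h6 hpos
  have h8 : Real.exp (-(2 * a * (m * c₀))) ≤ (1 - a / n) ^ (m * M) := by
    apply kappa_factor a (m * c₀) ha0' n hn2 hn0
    push_cast
    rw [mul_assoc]
    exact mul_le_mul_of_nonneg_left hM1 hm0.le
  have hcoef : 0 ≤ 1 / 2 * (dl / (1 + dl)) * p := by positivity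
  have h9 : Real.exp (-(2 * a * (m * c₀))) * (1 / 2 * (dl / (1 + dl)) * p)
      ≤ (1 - a / n) ^ (m * M) * (1 / 2 * (dl / (1 + dl)) * p) :=
    mul_le_mul_of_nonneg_right h8 hcoef
  have h10 : (N₀ : ℝ) ≤ 3 * Real.exp (n * ((1 + dl) * (m * c₀ / q) * Lam)) := by
    refine hN3.trans ?_
    apply mul_le_mul_of_nonneg_left _ (by norm_num)
    apply Real.exp_le_exp.2
    have h' : ((m * M : ℕ) : ℝ) ≤ m * c₀ * n := by
      push_cast
      rw [mul_assoc]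
      exact mul_le_mul_of_nonneg_left hM1 hm0.le
    have e : (n : ℝ) * ((1 + dl) * (m * c₀ / q) * Lam) = (1 + dl) * ((m * c₀ * n) * Lam) / q := by
      field_simp
    rw [e]
    apply div_le_div_of_nonneg_right _ hq0'.le
    apply mul_le_mul_of_nonneg_left _ (by linarith)
    exact mul_le_mul_of_nonneg_right h' hLam0
  have h11 : B ^ n = Real.exp (n * Real.log B) := by
    rw [Real.exp_nat_mul, Real.exp_log hB0]
  have h12 : Real.exp (-(2 * a * (m * c₀))) * (1 / 2 * (dl / (1 + dl)) * p)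
      ≤ ((R : ℝ) + 1) * ((3 * Real.exp (n * ((1 + dl) * (m * c₀ / q) * Lam)))
          * (Real.exp (K + 1) * R * Real.exp (n * Real.log B))) := by
    refine (h9.trans h7).trans ?_
    rw [h11]
    apply mul_le_mul_of_nonneg_left _ (by positivity)
    exact mul_le_mul_of_nonneg_right h10 (by positivity)
  have h13 : p = 2 * ((1 + dl) / dl) * Real.exp (2 * a * (m * c₀))
      * (Real.exp (-(2 * a * (m * c₀))) * (1 / 2 * (dl / (1 + dl)) * p)) := by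
    have h' : Real.exp (2 * a * (m * c₀)) * Real.exp (-(2 * a * (m * c₀))) = 1 := by
      rw [← Real.exp_add]; simp
    have h'' : (1 + dl) / dl * (dl / (1 + dl)) = 1 := by field_simp
    calc p = ((1 + dl) / dl * (dl / (1 + dl)))
          * (Real.exp (2 * a * (m * c₀)) * Real.exp (-(2 * a * (m * c₀)))) * p := by
          rw [h', h'', one_mul, one_mul]
      _ = _ := by ring
  rw [h13]
  refine (mul_le_mul_of_nonneg_left h12 (by positivity)).trans (le_of_eq ?_)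
  have e9 : Real.exp (2 * a * (m * c₀) + K + 1)
        * Real.exp (n * (Real.log B + (1 + dl) * (m * c₀ / q) * Lam))
      = Real.exp (2 * a * (m * c₀)) * Real.exp (n * ((1 + dl) * (m * c₀ / q) * Lam))
        * Real.exp (K + 1) * Real.exp (n * Real.log B) := by
    rw [← Real.exp_add, ← Real.exp_add, ← Real.exp_add, ← Real.exp_add]
    congr 1
    ring
  calc 2 * ((1 + dl) / dl) * Real.exp (2 * a * (m * c₀)) * (((R : ℝ) + 1)
        * ((3 * Real.exp (n * ((1 + dl) * (m * c₀ / q) * Lam)))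
          * (Real.exp (K + 1) * R * Real.exp (n * Real.log B))))
      = 6 * ((1 + dl) / dl) * (Real.exp (2 * a * (m * c₀))
        * Real.exp (n * ((1 + dl) * (m * c₀ / q) * Lam))
        * Real.exp (K + 1) * Real.exp (n * Real.log B)) * ((R : ℝ) + 1) * R := by ring
    _ = _ := by rw [← e9]; ring

end Vale.Agent.P170
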