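import Vale.Agent.P170.UB2.FinalW

namespace Vale.Agent.P170

open Finset Filter Topology

/-- the general upper bound theorem with several field strengths -/
theorem ub_main_w (m : ℕ) (hm : 1 ≤ m) (c₀ : ℝ) (hc₀ : 0 < c₀)
    {E E' : Type} [Fintype E] [DecidableEq E] [Fintype E'] (ω η : E → ℝ) (ω' ϑ : E' → ℝ)
    (qm : ℕ → ℝ) (hq0 : ∀ p, 0 ≤ qm p) (hmom : ∀ p, ∑ e, ω e * η e ^ p = qm p ^ m)
    (hmom' : ∀ p, ∑ e, ω' e * ϑ e ^ p = qm p ^ (m + 1))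
    (hsum : ∑ e, ω e = 1) (hsum' : ∑ e, ω' e = 1) (hω : ∀ e, 0 ≤ ω e) (hω' : ∀ e, 0 ≤ ω' e)
    (hη0 : ∀ e, 0 ≤ η e) (hη1 : ∀ e, η e ≤ 1)
    (θmin : ℝ) (hθmin : 0 < θmin) (hϑ0 : ∀ e, 0 ≤ ϑ e) (hϑ1 : ∀ e, θmin ≤ 1 - ϑ e)
    (q P : ℕ) (hq : 1 ≤ q) (aLow : ℕ → ℝ) (R₀ : ℕ) (ha0 : ∀ p < P, 0 ≤ aLow p)
    (ha : ∀ p < P, ∀ R, R₀ ≤ R →
      aLow p ≤ boxMom (fun e => ((m : ℝ) + 1) * c₀ / 2 * ω e) (fun e => 1 - η e) R (p + 1))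
    (B dl : ℝ) (hB0 : 0 < B) (hdl : 0 < dl)
    (hB : Real.exp (((m : ℝ) + 1) * c₀) - ∑ p ∈ range P, bc (1 / (q : ℝ)) p * aLow p ^ 2
      ≤ B * Real.exp (((m : ℝ) + 1) * c₀))
    (hlog : Real.log B + (1 + dl) * (m * c₀ / q) * ∑ e, ω' e * (-Real.log (1 - ϑ e)) < 0) :
    ∀ c : ℝ, c₀ ≤ c → Tendsto (fun n : ℕ => satProb (m + 1) n ⌊c * (n : ℝ)⌋₊) atTop (𝓝 0) := by
  intro c hc
  set a := ((m : ℝ) + 1) ^ 2 / (2 ^ (m + 1) * θmin * m) with ha'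
  set ρ := Real.log B + (1 + dl) * (m * c₀ / q) * ∑ e, ω' e * (-Real.log (1 - ϑ e)) with hρ
  set C₁ := 6 * ((1 + dl) / dl) * Real.exp (2 * a * (m * c₀) + ((m : ℝ) + 1) + 1) with hC₁
  have hC₁0 : 0 ≤ C₁ := by rw [hC₁]; positivity
  set K := (m : ℝ) + 1 with hK
  have hK0 : 0 < K := by rw [hK]; positivity
  have hlim := tendsto_sq_mul_exp (C₁ * (K * c₀ + 1) ^ 2) ρ hlog
  refine squeeze_zero' (Eventually.of_forall (fun n => satProb_nonneg _ _ _)) ?_ hlim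
  have ev1 : ∀ᶠ n : ℕ in atTop, m + 1 ≤ n := eventually_ge_atTop _
  have ev2 : ∀ᶠ n : ℕ in atTop, ⌈2 * a⌉₊ ≤ n := eventually_ge_atTop _
  have ev3 : ∀ᶠ n : ℕ in atTop, ⌈((R₀ : ℝ) + 1) / c₀⌉₊ ≤ n := eventually_ge_atTop _
  filter_upwards [ev1, ev2, ev3] with n hn1 hn2 hn3
  have hn0 : 0 < n := by omega
  have hn0' : (1 : ℝ) ≤ n := by exact_mod_cast hn0
  have hn2' : 2 * a ≤ n := (Nat.le_ceil _).trans (by exact_mod_cast hn2)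
  have hn3' : ((R₀ : ℝ) + 1) / c₀ ≤ n := (Nat.le_ceil _).trans (by exact_mod_cast hn3)
  have hDM : R₀ + 1 ≤ ⌊c₀ * (n : ℝ)⌋₊ := by
    apply Nat.le_floor
    push_cast
    rw [div_le_iff₀ hc₀] at hn3'
    linarith
  have hfb := finite_bound_w m hm c₀ hc₀ ω η ω' ϑ qm hq0 hmom hmom' hsum hsum' hω hω' hη0 hη1
    θmin hθmin hϑ0 hϑ1 q P hq aLow R₀ ha0 ha B dl hB0 hdl hB n hn1 hn2' (by omega) (by omega)
  rw [satProb_eq _ _ _ hn1]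
  have hfl : ⌊c₀ * (n : ℝ)⌋₊ ≤ ⌊c * (n : ℝ)⌋₊ :=
    Nat.floor_mono (mul_le_mul_of_nonneg_right hc (Nat.cast_nonneg _))
  refine (prV_anti (Fin n) (m + 1) hfl).trans (hfb.trans ?_)
  rw [← ha', ← hρ, ← hC₁]
  set M := ⌊c₀ * (n : ℝ)⌋₊ with hM
  have hM1 : (M : ℝ) ≤ c₀ * n := Nat.floor_le (by positivity)
  have hR : ((M + m * M : ℕ) : ℝ) ≤ K * c₀ * n := by
    push_cast
    have : (M : ℝ) + m * M = K * M := by rw [hK]; ring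
    rw [this, mul_assoc]
    exact mul_le_mul_of_nonneg_left hM1 hK0.le
  have hR0 : (0 : ℝ) ≤ ((M + m * M : ℕ) : ℝ) := Nat.cast_nonneg _
  have hexp : 0 ≤ Real.exp (n * ρ) := (Real.exp_pos _).le
  apply mul_le_mul_of_nonneg_right _ hexp
  have h1 : ((M + m * M : ℕ) : ℝ) + 1 ≤ (K * c₀ + 1) * n := by nlinarith
  have h2 : ((M + m * M : ℕ) : ℝ) ≤ (K * c₀ + 1) * n := by nlinarith
  calc C₁ * (((M + m * M : ℕ) : ℝ) + 1) * ((M + m * M : ℕ) : ℝ)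
      = C₁ * ((((M + m * M : ℕ) : ℝ) + 1) * ((M + m * M : ℕ) : ℝ)) := by ring
    _ ≤ C₁ * (((K * c₀ + 1) * n) * ((K * c₀ + 1) * n)) := by
        apply mul_le_mul_of_nonneg_left _ hC₁0
        exact mul_le_mul h1 h2 hR0 (by positivity)
    _ = C₁ * (K * c₀ + 1) ^ 2 * (n : ℝ) ^ 2 := by ring

end Vale.Agent.P170
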