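import Vale.Agent.P170.UB2.OneStepW

namespace Vale.Agent.P170

open Finset

section
variable {Ω : Type}

lemma isMix_smul (θ : ℝ) (h0 : 0 ≤ θ) (h1 : θ ≤ 1) {φ : Set Ω → ℝ} (hφ : IsMix φ) :
    IsMix (fun Y => θ * φ Y) := by
  obtain ⟨ι, _, P, Y, hP, hsum, hrep⟩ := hφ
  refine ⟨ι, inferInstance, fun i => θ * P i, Y, fun i => mul_nonneg h0 (hP i), ?_, ?_⟩
  · rw [← Finset.mul_sum]
    have : 0 ≤ ∑ i, P i := Finset.sum_nonneg (fun i _ => hP i)
    nlinarith
  · intro X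
    show θ * φ X = ∑ i, (θ * P i) * ind (X ∩ Y i)
    rw [hrep, Finset.mul_sum]
    refine Finset.sum_congr rfl (fun i _ => ?_)
    ring

lemma isMix_bounds {φ : Set Ω → ℝ} (hφ : IsMix φ) (X : Set Ω) : 0 ≤ φ X ∧ φ X ≤ 1 := by
  obtain ⟨ι, _, P, Y, hP, hsum, hrep⟩ := hφ
  constructor
  · rw [hrep]
    exact Finset.sum_nonneg (fun i _ => mul_nonneg (hP i) (ind_nonneg _))
  · rw [hrep]
    calc ∑ i, P i * ind (X ∩ Y i) ≤ ∑ i, P i := by
          refine Finset.sum_le_sum (fun i _ => ?_)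
          have := mul_le_mul_of_nonneg_left (ind_le_one (X ∩ Y i)) (hP i)
          linarith
      _ ≤ 1 := hsum

/-- the base functional -/
noncomputable def Psi0 (N : ℕ) : (Set Ω → ℝ) → Set Ω → ℝ := fun φ X => GN N (φ X)

end

section step
variable {V : Type} [DecidableEq V] [Fintype V]

lemma one_step_w (m : ℕ) (hkn : m + 1 ≤ Fintype.card V)
    {E E' : Type} [Fintype E] [Fintype E'] (ω η : E → ℝ) (ω' ϑ : E' → ℝ) (qm : ℕ → ℝ)
    (hq0 : ∀ p, 0 ≤ qm p) (hmom : ∀ p, ∑ e, ω e * η e ^ p = qm p ^ m)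
    (hmom' : ∀ p, ∑ e, ω' e * ϑ e ^ p = qm p ^ (m + 1))
    (hsum : ∑ e, ω e = 1) (hsum' : ∑ e, ω' e = 1) (hω' : ∀ e, 0 ≤ ω' e)
    (θmin : ℝ) (hθmin : 0 < θmin) (hϑ0 : ∀ e, 0 ≤ ϑ e) (hϑ1 : ∀ e, θmin ≤ 1 - ϑ e)
    (N : ℕ) (φ : Set (V → Bool) → ℝ) (hφ : IsMix φ) (X : Set (V → Bool)) :
    TC (hset : Clause V (m + 1) → Set (V → Bool)) (Psi0 N) φ X
        + (m - epsn (Fintype.card V) m / θmin) * TDw ω' (fun e => 1 - ϑ e) (Psi0 N) φ X
      ≤ ((m : ℝ) + 1) * THw ω η (lit : V × Bool → Set (V → Bool)) (Psi0 N) φ X := by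
  have hb01 := isMix_bounds hφ X
  obtain ⟨ι, _, P, Y, hP, hsumP, hrep⟩ := hφ
  have hneC : Nonempty (Clause V (m + 1)) := nonempty_clause hkn
  have hVpos : 0 < Fintype.card V := by omega
  have hneV : Nonempty V := Fintype.card_pos_iff.1 hVpos
  set Z := ∑ i, P i * ind (X ∩ Y i) with hZ
  have hZφ : φ X = Z := hrep X
  have hZ1 : Z ≤ 1 := by rw [← hZφ]; exact hb01.2
  have hZ0 : 0 ≤ Z := by rw [← hZφ]; exact hb01.1
  have hgen : ∀ h : Set (V → Bool), φ (X ∩ h) = Z - ∑ i, P i * kl h (X ∩ Y i) := by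
    intro h
    rw [hrep, hZ, ← Finset.sum_sub_distrib]
    refine Finset.sum_congr rfl (fun i _ => ?_)
    simp only [kl]
    rw [Set.inter_right_comm]
    ring
  have hb := binom_step_w m hkn P hP (fun i => X ∩ Y i) ω η ω' ϑ qm hq0 hmom hmom'
    (1 - Z) (by linarith) N
  rw [← hZ] at hb
  have eC : TC (hset : Clause V (m + 1) → Set (V → Bool)) (Psi0 N) φ X
      = 1 - (∑ c : Clause V (m + 1), (1 * (∑ i, P i * kl (hset c) (X ∩ Y i)) + (1 - Z)) ^ N)
          / (Fintype.card (Clause V (m + 1)) : ℝ) := by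
    unfold TC Psi0 GN
    rw [avg_one_sub]
    congr 2
    refine Finset.sum_congr rfl (fun c _ => ?_)
    rw [hgen]
    congr 1
    ring
  have eL : THw ω η (lit : V × Bool → Set (V → Bool)) (Psi0 N) φ X
      = 1 - ∑ e, ω e * ((∑ l : V × Bool, (η e * (∑ i, P i * kl (lit l) (X ∩ Y i)) + (1 - Z)) ^ N)
          / (Fintype.card (V × Bool) : ℝ)) := by
    unfold THw Psi0 GN fld
    have hterm : ∀ e ∈ (univ : Finset E), ω e * ((∑ l : V × Bool,
          (1 - (1 - ((1 - η e) * φ X + η e * φ (X ∩ lit l))) ^ N)) / (Fintype.card (V × Bool) : ℝ))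
        = ω e - ω e * ((∑ l : V × Bool, (η e * (∑ i, P i * kl (lit l) (X ∩ Y i)) + (1 - Z)) ^ N)
          / (Fintype.card (V × Bool) : ℝ)) := by
      intro e _
      rw [avg_one_sub, mul_sub, mul_one]
      congr 3
      refine Finset.sum_congr rfl (fun l _ => ?_)
      congr 1
      rw [hgen (lit l), hZφ]
      ring
    rw [Finset.sum_congr rfl hterm, Finset.sum_sub_distrib, hsum]
  have eD : TDw ω' (fun e => 1 - ϑ e) (Psi0 N) φ X
      = 1 - ∑ e, ω' e * (ϑ e * Z + (1 - Z)) ^ N := by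
    unfold TDw Psi0 GN
    have hterm : ∀ e ∈ (univ : Finset E'), ω' e * (1 - (1 - (1 - ϑ e) * φ X) ^ N)
        = ω' e - ω' e * (ϑ e * Z + (1 - Z)) ^ N := by
      intro e _
      rw [mul_sub, mul_one, hZφ]
      congr 2
      ring
    rw [Finset.sum_congr rfl hterm, Finset.sum_sub_distrib, hsum']
  have e0 : GN N Z = (Z + (1 - Z)) ^ N - (1 - Z) ^ N := by
    unfold GN
    simp
  have hG0 : 0 ≤ GN N Z := GN_nonneg N Z hZ0 hZ1
  -- lower bound for the rescaling term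
  have hD : θmin * GN N Z ≤ TDw ω' (fun e => 1 - ϑ e) (Psi0 N) φ X := by
    unfold TDw Psi0
    show θmin * GN N Z ≤ ∑ e, ω' e * GN N ((1 - ϑ e) * φ X)
    rw [hZφ]
    calc θmin * GN N Z = ∑ e, ω' e * (θmin * GN N Z) := by
          rw [← Finset.sum_mul, hsum', one_mul]
      _ ≤ ∑ e, ω' e * GN N ((1 - ϑ e) * Z) := by
          refine Finset.sum_le_sum (fun e _ => ?_)
          apply mul_le_mul_of_nonneg_left _ (hω' e)
          have h1 := GN_concave N (1 - ϑ e) Z (by linarith [hϑ1 e]) (by linarith [hϑ0 e]) hZ1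
          have h2 : θmin * GN N Z ≤ (1 - ϑ e) * GN N Z := mul_le_mul_of_nonneg_right (hϑ1 e) hG0
          linarith
  have heps := epsn_nonneg (Fintype.card V) m
  have h3 : epsn (Fintype.card V) m * GN N Z
      ≤ epsn (Fintype.card V) m / θmin * TDw ω' (fun e => 1 - ϑ e) (Psi0 N) φ X := by
    rw [div_mul_eq_mul_div, le_div_iff₀ hθmin]
    have := mul_le_mul_of_nonneg_left hD heps
    linarith
  rw [← e0] at hb
  rw [sub_mul]
  have h4 : TC (hset : Clause V (m + 1) → Set (V → Bool)) (Psi0 N) φ X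
        + m * TDw ω' (fun e => 1 - ϑ e) (Psi0 N) φ X
      ≤ ((m : ℝ) + 1) * THw ω η (lit : V × Bool → Set (V → Bool)) (Psi0 N) φ X
        + epsn (Fintype.card V) m * GN N Z := by
    rw [eC, eL, eD]
    linarith
  linarith

end step

end Vale.Agent.P170
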