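import Vale.Agent.P170.UB2.RSBDefs
import Vale.Agent.P170.UB2.Closed

namespace Vale.Agent.P170

open Finset Filter Topology

lemma sum_prod_pow {T : Type} [Fintype T] (j : ℕ) (f : T → ℝ) :
    ∑ e : Fin j → T, ∏ s, f (e s) = (∑ t, f t) ^ j := by
  rw [Fintype.sum_pow]

/-- The zero-temperature one-step replica-symmetry-breaking upper bound for every `k ≥ 2` and
every finitely supported order parameter. -/
theorem one_rsb_upper (k : ℕ) (hk : 2 ≤ k) {T : Type} [Fintype T] [DecidableEq T] (w u : T → ℝ)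
    (hw : ∀ t, 0 ≤ w t) (hws : ∑ t, w t = 1) (hu0 : ∀ t, 0 ≤ u t) (hu1 : ∀ t, u t < 1)
    (α : ℝ) (hα : 0 < α) (P : ℕ)
    (hcrit : α * ((k : ℝ) - 1) * LamRSB k w u
      < ∑ p ∈ range P, Ahat (k - 1) w u (k * α / 2) (p + 1) ^ 2 / ((p : ℝ) + 1)) :
    ∀ c : ℝ, α ≤ c → Tendsto (fun n : ℕ => satProb k n ⌊c * (n : ℝ)⌋₊) atTop (𝓝 0) := by
  obtain ⟨m, rfl⟩ : ∃ m, k = m + 1 := ⟨k - 1, by omega⟩
  have hm : 1 ≤ m := by omega
  have hT : Nonempty T := by
    by_contra hne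
    rw [not_nonempty_iff] at hne
    simp at hws
  obtain ⟨t0, _, ht0⟩ := Finset.exists_max_image (univ : Finset T) u Finset.univ_nonempty
  set umax := u t0 with humax
  have humax0 : 0 ≤ umax := hu0 t0
  have humax1 : umax < 1 := hu1 t0
  have hule : ∀ t, u t ≤ umax := fun t => ht0 t (Finset.mem_univ t)
  have hu1' : ∀ t, u t ≤ 1 := fun t => (hu1 t).le
  have hmomgen : ∀ (j p : ℕ), ∑ e : Fin j → T, (∏ s, w (e s)) * (∏ s, u (e s)) ^ p
      = (∑ t, w t * u t ^ p) ^ j := by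
    intro j p
    rw [← sum_prod_pow]
    refine Finset.sum_congr rfl (fun e _ => ?_)
    rw [← Finset.prod_pow, ← Finset.prod_mul_distrib]
  have hsumgen : ∀ j : ℕ, ∑ e : Fin j → T, ∏ s, w (e s) = 1 := by
    intro j
    rw [sum_prod_pow, hws, one_pow]
  have e1 : (((m + 1 : ℕ) : ℝ)) = (m : ℝ) + 1 := by push_cast; ring
  have e2 : m + 1 - 1 = m := by simp
  rw [e1, e2] at hcrit
  have e3 : (m : ℝ) + 1 - 1 = m := by ring
  rw [e3] at hcrit
  refine ub_closed m hm α hα (fun e : Fin m → T => ∏ s, w (e s)) (fun e => ∏ s, u (e s))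
    (fun e : Fin (m + 1) → T => ∏ s, w (e s)) (fun e => ∏ s, u (e s))
    (fun p => ∑ t, w t * u t ^ p)
    (fun p => Finset.sum_nonneg (fun t _ => mul_nonneg (hw t) (pow_nonneg (hu0 t) p)))
    (fun p => hmomgen m p) (fun p => hmomgen (m + 1) p) (hsumgen m) (hsumgen (m + 1))
    (fun e => Finset.prod_nonneg (fun s _ => hw _)) (fun e => Finset.prod_nonneg (fun s _ => hw _))
    (fun e => Finset.prod_nonneg (fun s _ => hu0 _))
    (fun e => Finset.prod_le_one (fun s _ => hu0 _) (fun s _ => hu1' _))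
    (1 - umax ^ (m + 1)) ?_ (fun e => Finset.prod_nonneg (fun s _ => hu0 _)) ?_ P ?_
  · have : umax ^ (m + 1) < 1 := pow_lt_one₀ humax0 humax1 (by omega)
    linarith
  · intro e
    have : ∏ s, u (e s) ≤ ∏ _s : Fin (m + 1), umax :=
      Finset.prod_le_prod (fun s _ => hu0 _) (fun s _ => hule _)
    rw [Finset.prod_const, Finset.card_univ, Fintype.card_fin] at this
    linarith
  · unfold LamRSB Ahat Mmom at hcrit
    exact hcrit

end Vale.Agent.P170
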