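import Vale.Agent.P170.UB2.Basic
import Vale.Agent.P170.UB.Mix

namespace Vale.Agent.P170

open Finset

variable {V : Type} [DecidableEq V] [Fintype V]

lemma binom_step_w (m : ℕ) (hkn : m + 1 ≤ Fintype.card V) {ι : Type} [Fintype ι]
    (P : ι → ℝ) (hP : ∀ i, 0 ≤ P i) (X : ι → Set (V → Bool))
    {E E' : Type} [Fintype E] [Fintype E'] (ω η : E → ℝ) (ω' ϑ : E' → ℝ) (qm : ℕ → ℝ)
    (hq0 : ∀ p, 0 ≤ qm p) (hmom : ∀ p, ∑ e, ω e * η e ^ p = qm p ^ m)
    (hmom' : ∀ p, ∑ e, ω' e * ϑ e ^ p = qm p ^ (m + 1))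
    (A : ℝ) (hA : 0 ≤ A) (N : ℕ) :
    ((m : ℝ) + 1) * ∑ e, ω e * ((∑ l : V × Bool, (η e * (∑ i, P i * kl (lit l) (X i)) + A) ^ N)
          / (Fintype.card (V × Bool) : ℝ))
      ≤ (∑ c : Clause V (m + 1), (1 * (∑ i, P i * kl (hset c) (X i)) + A) ^ N)
          / (Fintype.card (Clause V (m + 1)) : ℝ)
        + m * ∑ e, ω' e * (ϑ e * (∑ i, P i * ind (X i)) + A) ^ N
        + epsn (Fintype.card V) m * (((∑ i, P i * ind (X i)) + A) ^ N - A ^ N) := by
  set Z := ∑ i, P i * ind (X i) with hZ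
  have hneC : Nonempty (Clause V (m + 1)) := nonempty_clause hkn
  have hCpos : (Fintype.card (Clause V (m + 1)) : ℝ) ≠ 0 := by
    exact_mod_cast Fintype.card_ne_zero
  have hVpos : 0 < Fintype.card V := by omega
  have hneV : Nonempty V := Fintype.card_pos_iff.1 hVpos
  have hLpos : (Fintype.card (V × Bool) : ℝ) ≠ 0 := by
    exact_mod_cast Fintype.card_ne_zero
  simp only [avg_add_pow]
  have e0 : ∑ e, ω e * ∑ p ∈ range (N + 1),
        (η e ^ p * ((∑ l : V × Bool, (∑ i, P i * kl (lit l) (X i)) ^ p)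
          / (Fintype.card (V × Bool) : ℝ))) * (A ^ (N - p) * (N.choose p : ℝ))
      = ∑ p ∈ range (N + 1), (qm p ^ m * ((∑ l : V × Bool, (∑ i, P i * kl (lit l) (X i)) ^ p)
          / (Fintype.card (V × Bool) : ℝ))) * (A ^ (N - p) * (N.choose p : ℝ)) := by
    simp only [Finset.mul_sum]
    rw [Finset.sum_comm]
    refine Finset.sum_congr rfl (fun p _ => ?_)
    rw [← hmom p, Finset.sum_mul, Finset.sum_mul]
    refine Finset.sum_congr rfl (fun e _ => ?_)
    ring
  have e1 : ∑ e, ω' e * (ϑ e * Z + A) ^ N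
      = ∑ p ∈ range (N + 1), (qm p ^ (m + 1) * Z ^ p) * (A ^ (N - p) * (N.choose p : ℝ)) := by
    simp only [add_pow, Finset.mul_sum]
    rw [Finset.sum_comm]
    refine Finset.sum_congr rfl (fun p _ => ?_)
    rw [← hmom' p, Finset.sum_mul, Finset.sum_mul]
    refine Finset.sum_congr rfl (fun e _ => ?_)
    rw [mul_pow]; ring
  have e2 : (Z + A) ^ N - A ^ N
      = ∑ p ∈ range (N + 1), (Z ^ p - if p = 0 then 1 else 0) * (A ^ (N - p) * (N.choose p : ℝ)) := by
    rw [add_pow]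
    simp only [sub_mul, Finset.sum_sub_distrib, ite_mul, one_mul, zero_mul]
    rw [Finset.sum_ite_eq' (range (N + 1)) 0]
    simp
    refine Finset.sum_congr rfl (fun p _ => ?_)
    ring
  rw [e0, e1, e2, Finset.mul_sum, Finset.mul_sum, Finset.mul_sum, ← Finset.sum_add_distrib,
    ← Finset.sum_add_distrib]
  refine Finset.sum_le_sum (fun p _ => ?_)
  have hw : 0 ≤ A ^ (N - p) * (N.choose p : ℝ) := by positivity
  have key : ((m : ℝ) + 1) * (qm p ^ m * ((∑ l : V × Bool, (∑ i, P i * kl (lit l) (X i)) ^ p)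
          / (Fintype.card (V × Bool) : ℝ)))
      ≤ 1 ^ p * ((∑ c : Clause V (m + 1), (∑ i, P i * kl (hset c) (X i)) ^ p)
          / (Fintype.card (Clause V (m + 1)) : ℝ))
        + m * (qm p ^ (m + 1) * Z ^ p)
        + epsn (Fintype.card V) m * (Z ^ p - if p = 0 then 1 else 0) := by
    rcases p with _ | p
    · have ht := tangent_ineq 1 (qm 0) zero_le_one (hq0 0) m
      simp
      simp at ht
      linarith
    · have h := per_moment m hkn P hP X (qm (p + 1)) (hq0 _) p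
      simp only [one_pow, one_mul, Nat.succ_ne_zero, if_false, sub_zero, Nat.add_eq_zero_iff,
        one_ne_zero, and_false]
      rw [← hZ] at h
      linarith
  have h2 := mul_le_mul_of_nonneg_right key hw
  linarith

end Vale.Agent.P170
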