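import Vale.Agent.P170.Defs

/-!
The zero-temperature one-step replica-symmetry-breaking functional of random `k`-SAT for a
finitely supported order parameter `ζ = ∑ t, w t • δ_{u t}` on `[0, 1)`.
-/

namespace Vale.Agent.P170

open Finset

/-- `E (1 - η) ^ i`, where `η = u_1 ⋯ u_j` is a product of `j` independent samples of `ζ`. -/
noncomputable def Mmom {T : Type} [Fintype T] (j : ℕ) (w u : T → ℝ) (i : ℕ) : ℝ :=
  ∑ e : Fin j → T, (∏ s, w (e s)) * (1 - ∏ s, u (e s)) ^ i

/-- `E (1 - ∏_{a ≤ D} (1 - η_a)) ^ p` for `D` Poisson of mean `μ` and independent `η_a` as above,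
written in closed form. -/
noncomputable def Ahat {T : Type} [Fintype T] (j : ℕ) (w u : T → ℝ) (μ : ℝ) (p : ℕ) : ℝ :=
  ∑ i ∈ range (p + 1), (-1 : ℝ) ^ i * (p.choose i : ℝ) * Real.exp (-μ * (1 - Mmom j w u i))

/-- `E (- log (1 - u_1 ⋯ u_j))` for `j` independent samples of `ζ`. -/
noncomputable def LamRSB {T : Type} [Fintype T] (j : ℕ) (w u : T → ℝ) : ℝ :=
  ∑ e : Fin j → T, (∏ s, w (e s)) * (-Real.log (1 - ∏ s, u (e s)))

end Vale.Agent.P170
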