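import Vale.Agent.P170.UB2.MixW
import Vale.Agent.P170.UB.Recur

namespace Vale.Agent.P170

open Finset

section functionals
variable {Ω : Type}

lemma THw_eq {L E : Type} [Fintype L] [Fintype E] (ω η : E → ℝ) (hl : L → Set Ω)
    (Ψ : (Set Ω → ℝ) → Set Ω → ℝ) (φ : Set Ω → ℝ) (X : Set Ω) :
    THw ω η hl Ψ φ X = ∑ e, ω e * TH (η e) hl Ψ φ X := rfl

lemma rel3_THw {L E : Type} [Fintype L] [Fintype E] (ω η : E → ℝ) (hω : ∀ e, 0 ≤ ω e)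
    (h0 : ∀ e, 0 ≤ η e) (h1 : ∀ e, η e ≤ 1) (hl : L → Set Ω) {κ K : ℝ}
    {Ψ₁ Ψ₂ Ψ₃ : (Set Ω → ℝ) → Set Ω → ℝ} (h : Rel3 κ K Ψ₁ Ψ₂ Ψ₃) :
    Rel3 κ K (THw ω η hl Ψ₁) (THw ω η hl Ψ₂) (THw ω η hl Ψ₃) := by
  intro φ hφ X
  rw [THw_eq, THw_eq, THw_eq, Finset.mul_sum, Finset.mul_sum, ← Finset.sum_add_distrib]
  refine Finset.sum_le_sum (fun e _ => ?_)
  have := mul_le_mul_of_nonneg_left (rel3_TH (η e) (h0 e) (h1 e) hl h φ hφ X) (hω e)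
  linarith

lemma rel3_TDw {E' : Type} [Fintype E'] (ω' θ' : E' → ℝ) (hω : ∀ e, 0 ≤ ω' e)
    (h0 : ∀ e, 0 ≤ θ' e) (h1 : ∀ e, θ' e ≤ 1) {κ K : ℝ}
    {Ψ₁ Ψ₂ Ψ₃ : (Set Ω → ℝ) → Set Ω → ℝ} (h : Rel3 κ K Ψ₁ Ψ₂ Ψ₃) :
    Rel3 κ K (TDw ω' θ' Ψ₁) (TDw ω' θ' Ψ₂) (TDw ω' θ' Ψ₃) := by
  intro φ hφ X
  unfold TDw
  rw [Finset.mul_sum, Finset.mul_sum, ← Finset.sum_add_distrib]
  refine Finset.sum_le_sum (fun e _ => ?_)
  have := mul_le_mul_of_nonneg_left (h _ (isMix_smul (θ' e) (h0 e) (h1 e) hφ) X) (hω e)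
  linarith

lemma rel3_iter (T : ((Set Ω → ℝ) → Set Ω → ℝ) → ((Set Ω → ℝ) → Set Ω → ℝ)) {κ K : ℝ}
    (hT : ∀ Ψ₁ Ψ₂ Ψ₃, Rel3 κ K Ψ₁ Ψ₂ Ψ₃ → Rel3 κ K (T Ψ₁) (T Ψ₂) (T Ψ₃))
    {Ψ₁ Ψ₂ Ψ₃ : (Set Ω → ℝ) → Set Ω → ℝ} (h : Rel3 κ K Ψ₁ Ψ₂ Ψ₃) (s : ℕ) :
    Rel3 κ K (T^[s] Ψ₁) (T^[s] Ψ₂) (T^[s] Ψ₃) := by
  induction s with
  | zero => exact h
  | succ s ih =>
    simp only [Function.iterate_succ_apply']
    exact hT _ _ _ ih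

lemma TC_THw_comm {C L E : Type} [Fintype C] [Fintype L] [Fintype E] (hc : C → Set Ω)
    (ω η : E → ℝ) (hl : L → Set Ω) : Function.Commute (TC hc) (THw ω η hl) := by
  intro Ψ
  funext φ X
  rw [THw_eq]
  have h1 : ∀ e, TH (η e) hl (TC hc Ψ) φ X = TC hc (TH (η e) hl Ψ) φ X := by
    intro e
    rw [← (TC_TH_comm hc (η e) hl) Ψ]
  simp only [h1]
  unfold TC
  simp only [THw_eq]
  rw [Finset.sum_comm, Finset.sum_div]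
  refine Finset.sum_congr rfl (fun e _ => ?_)
  rw [← Finset.mul_sum, mul_div_assoc]

lemma TC_TDw_comm {C E' : Type} [Fintype C] [Fintype E'] (hc : C → Set Ω)
    (ω' θ' : E' → ℝ) : Function.Commute (TC hc) (TDw ω' θ') := by
  intro Ψ
  funext φ X
  unfold TC TDw
  rw [Finset.sum_comm, Finset.sum_div]
  refine Finset.sum_congr rfl (fun e _ => ?_)
  rw [← Finset.mul_sum, mul_div_assoc]

lemma fld_smul (η θ : ℝ) (h : Set Ω) (φ : Set Ω → ℝ) :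
    fld η h (fun Y => θ * φ Y) = fun Y => θ * fld η h φ Y := by
  funext Y
  unfold fld
  ring

lemma swap3 {L E E' : Type} [Fintype L] [Fintype E] [Fintype E'] (ω : E → ℝ) (ω' : E' → ℝ)
    (f : E → L → E' → ℝ) (c : ℝ) :
    ∑ e, ω e * ((∑ l, ∑ e', ω' e' * f e l e') / c)
      = ∑ e', ω' e' * ∑ e, ω e * ((∑ l, f e l e') / c) := by
  calc ∑ e, ω e * ((∑ l, ∑ e', ω' e' * f e l e') / c)
      = ∑ e, ∑ e', ω' e' * (ω e * ((∑ l, f e l e') / c)) := by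
        refine Finset.sum_congr rfl (fun e _ => ?_)
        rw [Finset.sum_comm, Finset.sum_div, Finset.mul_sum]
        refine Finset.sum_congr rfl (fun e' _ => ?_)
        rw [← Finset.mul_sum]; ring
    _ = _ := by
        rw [Finset.sum_comm]
        refine Finset.sum_congr rfl (fun e' _ => ?_)
        rw [Finset.mul_sum]

lemma THw_TDw_comm {L E E' : Type} [Fintype L] [Fintype E] [Fintype E'] (ω η : E → ℝ)
    (hl : L → Set Ω) (ω' θ' : E' → ℝ) : Function.Commute (THw ω η hl) (TDw ω' θ') := by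
  intro Ψ
  funext φ X
  unfold THw TDw
  simp only [fld_smul]
  exact swap3 ω ω' (fun e l e' => Ψ (fun Y => θ' e' * fld (η e) (hl l) φ Y) X) _

/-- the interpolating functional -/
noncomputable def UfW {C L E E' : Type} [Fintype C] [Fintype L] [Fintype E] [Fintype E']
    (hc : C → Set Ω) (ω η : E → ℝ) (hl : L → Set Ω) (ω' θ' : E' → ℝ) (N : ℕ) (s t d : ℕ) :
    (Set Ω → ℝ) → Set Ω → ℝ :=
  (TC hc)^[t] ((THw ω η hl)^[s] ((TDw ω' θ')^[d] (Psi0 N)))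

lemma UfW_step {C L E E' : Type} [Fintype C] [Fintype L] [Fintype E] [Fintype E']
    (hc : C → Set Ω) (ω η : E → ℝ) (hω : ∀ e, 0 ≤ ω e) (h0 : ∀ e, 0 ≤ η e) (h1 : ∀ e, η e ≤ 1)
    (hl : L → Set Ω) (ω' θ' : E' → ℝ) (hω' : ∀ e, 0 ≤ ω' e) (hθ0 : ∀ e, 0 ≤ θ' e)
    (hθ1 : ∀ e, θ' e ≤ 1) (N : ℕ) (κ K : ℝ)
    (hbase : Rel3 κ K (TC hc (Psi0 N)) (TDw ω' θ' (Psi0 N)) (THw ω η hl (Psi0 N)))
    (s t d : ℕ) :
    Rel3 κ K (UfW hc ω η hl ω' θ' N s (t + 1) d) (UfW hc ω η hl ω' θ' N s t (d + 1))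
      (UfW hc ω η hl ω' θ' N (s + 1) t d) := by
  unfold UfW
  rw [Function.iterate_succ_apply, Function.iterate_succ_apply (THw ω η hl),
    Function.iterate_succ_apply (TDw ω' θ'),
    ((TC_THw_comm hc ω η hl).iterate_right s) _,
    ((TC_TDw_comm hc ω' θ').iterate_right d) _,
    ((THw_TDw_comm ω η hl ω' θ').iterate_right d) _]
  apply rel3_iter _ (fun _ _ _ h => rel3_TC hc h)
  apply rel3_iter _ (fun _ _ _ h => rel3_THw ω η hω h0 h1 hl h)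
  apply rel3_iter _ (fun _ _ _ h => rel3_TDw ω' θ' hω' hθ0 hθ1 h)
  exact hbase

lemma nn_Psi0 (N : ℕ) : NN (Psi0 (Ω := Ω) N) := by
  intro φ hφ X
  have := isMix_bounds hφ X
  exact GN_nonneg N _ this.1 this.2

lemma nn_THw {L E : Type} [Fintype L] [Fintype E] (ω η : E → ℝ) (hω : ∀ e, 0 ≤ ω e)
    (h0 : ∀ e, 0 ≤ η e) (h1 : ∀ e, η e ≤ 1) (hl : L → Set Ω)
    {Ψ : (Set Ω → ℝ) → Set Ω → ℝ} (h : NN Ψ) : NN (THw ω η hl Ψ) := by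
  intro φ hφ X
  rw [THw_eq]
  exact Finset.sum_nonneg (fun e _ => mul_nonneg (hω e) (nn_TH (η e) (h0 e) (h1 e) hl h φ hφ X))

lemma nn_TDw {E' : Type} [Fintype E'] (ω' θ' : E' → ℝ) (hω : ∀ e, 0 ≤ ω' e)
    (h0 : ∀ e, 0 ≤ θ' e) (h1 : ∀ e, θ' e ≤ 1)
    {Ψ : (Set Ω → ℝ) → Set Ω → ℝ} (h : NN Ψ) : NN (TDw ω' θ' Ψ) := by
  intro φ hφ X
  unfold TDw
  exact Finset.sum_nonneg (fun e _ => mul_nonneg (hω e)
    (h _ (isMix_smul (θ' e) (h0 e) (h1 e) hφ) X))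

lemma nn_iter (T : ((Set Ω → ℝ) → Set Ω → ℝ) → ((Set Ω → ℝ) → Set Ω → ℝ))
    (hT : ∀ Ψ, NN Ψ → NN (T Ψ)) {Ψ : (Set Ω → ℝ) → Set Ω → ℝ} (h : NN Ψ) (s : ℕ) :
    NN (T^[s] Ψ) := by
  induction s with
  | zero => exact h
  | succ s ih =>
    simp only [Function.iterate_succ_apply']
    exact hT _ ih

lemma nn_UfW {C L E E' : Type} [Fintype C] [Fintype L] [Fintype E] [Fintype E']
    (hc : C → Set Ω) (ω η : E → ℝ) (hω : ∀ e, 0 ≤ ω e) (h0 : ∀ e, 0 ≤ η e) (h1 : ∀ e, η e ≤ 1)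
    (hl : L → Set Ω) (ω' θ' : E' → ℝ) (hω' : ∀ e, 0 ≤ ω' e) (hθ0 : ∀ e, 0 ≤ θ' e)
    (hθ1 : ∀ e, θ' e ≤ 1) (N : ℕ) (s t d : ℕ) : NN (UfW hc ω η hl ω' θ' N s t d) := by
  unfold UfW
  apply nn_iter _ (fun _ h => nn_TC hc h)
  apply nn_iter _ (fun _ h => nn_THw ω η hω h0 h1 hl h)
  apply nn_iter _ (fun _ h => nn_TDw ω' θ' hω' hθ0 hθ1 h)
  exact nn_Psi0 N

end functionals

section main_rec
variable {V : Type} [DecidableEq V] [Fintype V]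

/-- the consequence of the interpolation: `i` clauses and `j` rescalings against `i + j` fields -/
lemma interp_bound_w (m : ℕ) (hkn : m + 1 ≤ Fintype.card V)
    {E E' : Type} [Fintype E] [Fintype E'] (ω η : E → ℝ) (ω' ϑ : E' → ℝ) (qm : ℕ → ℝ)
    (hq0 : ∀ p, 0 ≤ qm p) (hmom : ∀ p, ∑ e, ω e * η e ^ p = qm p ^ m)
    (hmom' : ∀ p, ∑ e, ω' e * ϑ e ^ p = qm p ^ (m + 1))
    (hsum : ∑ e, ω e = 1) (hsum' : ∑ e, ω' e = 1) (hω : ∀ e, 0 ≤ ω e) (hω' : ∀ e, 0 ≤ ω' e)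
    (hη0 : ∀ e, 0 ≤ η e) (hη1 : ∀ e, η e ≤ 1)
    (θmin : ℝ) (hθmin : 0 < θmin) (hϑ0 : ∀ e, 0 ≤ ϑ e) (hϑ1 : ∀ e, θmin ≤ 1 - ϑ e)
    (hκ : 0 ≤ (m : ℝ) - epsn (Fintype.card V) m / θmin) (N i j : ℕ) :
    (((i + j).choose i : ℕ) : ℝ) * ((m : ℝ) - epsn (Fintype.card V) m / θmin) ^ j
        * ((TC (hset : Clause V (m + 1) → Set (V → Bool)))^[i]
            ((TDw ω' (fun e => 1 - ϑ e))^[j] (Psi0 N))) ind Set.univ
      ≤ ((m : ℝ) + 1) ^ (i + j) *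
        ((THw ω η (lit : V × Bool → Set (V → Bool)))^[i + j] (Psi0 N)) ind Set.univ := by
  have hθ0 : ∀ e, 0 ≤ 1 - ϑ e := fun e => hθmin.le.trans (hϑ1 e)
  have hθ1 : ∀ e, 1 - ϑ e ≤ 1 := fun e => by linarith [hϑ0 e]
  set U : ℕ → ℕ → ℕ → ℝ := fun s t d =>
    UfW (hset : Clause V (m + 1) → Set (V → Bool)) ω η (lit : V × Bool → Set (V → Bool))
      ω' (fun e => 1 - ϑ e) N s t d ind Set.univ with hU
  have hbase : Rel3 ((m : ℝ) - epsn (Fintype.card V) m / θmin) ((m : ℝ) + 1)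
      (TC (hset : Clause V (m + 1) → Set (V → Bool)) (Psi0 N))
      (TDw ω' (fun e => 1 - ϑ e) (Psi0 N))
      (THw ω η (lit : V × Bool → Set (V → Bool)) (Psi0 N)) := by
    intro φ hφ X
    exact one_step_w m hkn ω η ω' ϑ qm hq0 hmom hmom' hsum hsum' hω' θmin hθmin hϑ0 hϑ1 N φ hφ X
  have h := abstract_rec U _ ((m : ℝ) + 1) hκ (by positivity)
    (fun s t d => nn_UfW _ ω η hω hη0 hη1 _ ω' _ hω' hθ0 hθ1 N s t d ind isMix_ind Set.univ)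
    (fun s t d => UfW_step _ ω η hω hη0 hη1 _ ω' _ hω' hθ0 hθ1 N _ _ hbase s t d
      ind isMix_ind Set.univ) i j
  exact h

end main_rec

end Vale.Agent.P170
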