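import Vale.Agent.P170.UB2.CertTools3
import Vale.Agent.P170.UB.Power

/-!
Evaluation of all box moments at once through a table of differences, for an arbitrary finite
set of atoms.
-/

namespace Vale.Agent.P170

open Finset

section real
variable {E : Type} [Fintype E] [DecidableEq E]

/-- box moment with an extra power of the product -/
noncomputable def boxG (ν x : E → ℝ) (R p i : ℕ) : ℝ :=
  ∑ a ∈ Fintype.piFinset (fun _ : E => range (R + 1)),
    pw ν a * ((∏ e, x e ^ (a e)) ^ i * (1 - ∏ e, x e ^ (a e)) ^ p)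

theorem boxG_right_zero (ν x : E → ℝ) (R p : ℕ) : boxG ν x R p 0 = boxMom ν x R p := by
  unfold boxG boxMom
  refine Finset.sum_congr rfl fun a _ => ?_
  rw [pow_zero, one_mul]

theorem boxG_succ (ν x : E → ℝ) (R p i : ℕ) :
    boxG ν x R (p + 1) i = boxG ν x R p i - boxG ν x R p (i + 1) := by
  unfold boxG
  rw [← Finset.sum_sub_distrib]
  refine Finset.sum_congr rfl fun a _ => ?_
  ring

theorem boxG_zero (ν x : E → ℝ) (R i : ℕ) :
    boxG ν x R 0 i = ∏ e, ∑ a ∈ range (R + 1), (ν e * x e ^ i) ^ a / (a.factorial : ℝ) := by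
  unfold boxG
  rw [Finset.prod_univ_sum]
  refine Finset.sum_congr rfl fun a _ => ?_
  unfold pw
  rw [pow_zero, mul_one, ← Finset.prod_pow, ← Finset.prod_mul_distrib]
  refine Finset.prod_congr rfl fun e _ => ?_
  rw [mul_pow, ← pow_mul, ← pow_mul, mul_comm (a e) i]
  ring

omit [DecidableEq E] in
theorem boxMom_term_nonneg (ν x : E → ℝ) (hν : ∀ e, 0 ≤ ν e) (hx0 : ∀ e, 0 ≤ x e)
    (hx1 : ∀ e, x e ≤ 1) (p : ℕ) (a : E → ℕ) :
    0 ≤ pw ν a * (1 - ∏ e, x e ^ (a e)) ^ p := by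
  have h1 : ∏ e, x e ^ (a e) ≤ 1 :=
    Finset.prod_le_one (fun e _ => pow_nonneg (hx0 e) _) (fun e _ => pow_le_one₀ (hx0 e) (hx1 e))
  have h2 : 0 ≤ pw ν a := by
    unfold pw
    exact Finset.prod_nonneg (fun e _ => div_nonneg (pow_nonneg (hν e) _) (Nat.cast_nonneg _))
  exact mul_nonneg h2 (pow_nonneg (by linarith) _)

theorem boxMom_nonneg (ν x : E → ℝ) (hν : ∀ e, 0 ≤ ν e) (hx0 : ∀ e, 0 ≤ x e)
    (hx1 : ∀ e, x e ≤ 1) (R p : ℕ) : 0 ≤ boxMom ν x R p := by
  unfold boxMom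
  exact Finset.sum_nonneg fun a _ => boxMom_term_nonneg ν x hν hx0 hx1 p a

theorem boxMom_mono (ν x : E → ℝ) (hν : ∀ e, 0 ≤ ν e) (hx0 : ∀ e, 0 ≤ x e)
    (hx1 : ∀ e, x e ≤ 1) {R₀ R : ℕ} (h : R₀ ≤ R) (p : ℕ) :
    boxMom ν x R₀ p ≤ boxMom ν x R p := by
  unfold boxMom
  apply Finset.sum_le_sum_of_subset_of_nonneg
  · apply Fintype.piFinset_subset
    intro e
    exact Finset.range_subset_range.2 (by omega)
  · intro a _ _
    exact boxMom_term_nonneg ν x hν hx0 hx1 p a

end real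

/-- a list of rationals follows a real sequence -/
def Tab : List ℚ → (ℕ → ℝ) → Prop
  | [], _ => True
  | a :: l, f => (a : ℝ) = f 0 ∧ Tab l (fun i => f (i + 1))

/-- list of values of a function -/
def mkL (F : ℕ → ℚ) : ℕ → ℕ → List ℚ
  | _, 0 => []
  | s, n + 1 => F s :: mkL F (s + 1) n

/-- consecutive differences, with the previous entry given -/
def diffA : ℚ → List ℚ → List ℚ
  | _, [] => []
  | a, b :: l => (a - b) :: diffA b l

/-- consecutive differences -/
def diffL : List ℚ → List ℚ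
  | [] => []
  | a :: l => diffA a l

/-- weighted sum of squares of the heads of the iterated differences -/
def sigL (r : ℚ) : ℕ → ℕ → ℚ → List ℚ → ℚ
  | 0, _, _, _ => 0
  | n + 1, p, b, L =>
    b * (L.headD 0) ^ 2 + sigL r n (p + 1) (b * ((p : ℚ) + 1 - r) / ((p : ℚ) + 2)) (diffL L)

theorem Tab_mkL (F : ℕ → ℚ) (f : ℕ → ℝ) (h : ∀ i, (F i : ℝ) = f i) :
    ∀ (n s : ℕ), Tab (mkL F s n) (fun i => f (s + i)) := by
  intro n
  induction n with
  | zero => intro s; trivial
  | succ n ih =>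
    intro s
    refine ⟨h s, ?_⟩
    have := ih (s + 1)
    have e : (fun i => f (s + 1 + i)) = (fun i => f (s + (i + 1))) := by
      funext i
      congr 1
      ring
    rw [e] at this
    exact this

theorem Tab_diffA : ∀ (l : List ℚ) (a : ℚ) (f : ℕ → ℝ), (a : ℝ) = f 0 →
    Tab l (fun i => f (i + 1)) → Tab (diffA a l) (fun i => f i - f (i + 1)) := by
  intro l
  induction l with
  | nil => intro a f _ _; trivial
  | cons b l ih =>
    intro a f ha hl
    obtain ⟨hb, hl'⟩ := hl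
    refine ⟨?_, ?_⟩
    · push_cast
      rw [ha, hb]
    · exact ih b (fun i => f (i + 1)) hb hl'

theorem Tab_diffL (L : List ℚ) (f : ℕ → ℝ) (h : Tab L f) :
    Tab (diffL L) (fun i => f i - f (i + 1)) := by
  cases L with
  | nil => trivial
  | cons a l => exact Tab_diffA l a f h.1 h.2

theorem sigL_le (r : ℚ) (hr0 : 0 ≤ r) (hr1 : r ≤ 1) (g : ℕ → ℕ → ℝ)
    (hg : ∀ p i, g (p + 1) i = g p i - g p (i + 1)) :
    ∀ (n p : ℕ) (L : List ℚ), Tab L (g (p + 1)) →
      ((sigL r n p (bcQ r p) L : ℚ) : ℝ) ≤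
        ∑ j ∈ range n, bc (r : ℝ) (p + j) * (g (p + j + 1) 0) ^ 2 := by
  have hr0' : (0 : ℝ) ≤ r := by exact_mod_cast hr0
  have hr1' : (r : ℝ) ≤ 1 := by exact_mod_cast hr1
  intro n
  induction n with
  | zero => intro p L _; simp [sigL]
  | succ n ih =>
    intro p L hL
    rw [Finset.sum_range_succ']
    have h1 : Tab (diffL L) (g (p + 1 + 1)) := by
      have := Tab_diffL L _ hL
      have e : (fun i => g (p + 1) i - g (p + 1) (i + 1)) = g (p + 1 + 1) := by
        funext i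
        rw [hg (p + 1) i]
      rw [e] at this
      exact this
    have h2 := ih (p + 1) (diffL L) h1
    have e2 : sigL r (n + 1) p (bcQ r p) L =
        bcQ r p * (L.headD 0) ^ 2 + sigL r n (p + 1) (bcQ r (p + 1)) (diffL L) := rfl
    rw [e2]
    push_cast
    have h3 : ((bcQ r p : ℚ) : ℝ) * ((L.headD 0 : ℚ) : ℝ) ^ 2 ≤
        bc (r : ℝ) (p + 0) * (g (p + 0 + 1) 0) ^ 2 := by
      rw [bcQ_cast, add_zero]
      have hb := bc_nonneg (r : ℝ) hr0' hr1' p
      cases L with
      | nil =>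
        simp only [List.headD_nil, Rat.cast_zero]
        have : 0 ≤ bc (r : ℝ) p * (g (p + 1) 0) ^ 2 := mul_nonneg hb (sq_nonneg _)
        simpa using this
      | cons a l =>
        simp only [List.headD_cons]
        rw [hL.1]
    have e3 : ∑ j ∈ range n, bc (r : ℝ) (p + 1 + j) * (g (p + 1 + j + 1) 0) ^ 2 =
        ∑ j ∈ range n, bc (r : ℝ) (p + (j + 1)) * (g (p + (j + 1) + 1) 0) ^ 2 := by
      refine Finset.sum_congr rfl fun j _ => ?_
      have : p + 1 + j = p + (j + 1) := by ring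
      rw [this]
    rw [e3] at h2
    linarith

end Vale.Agent.P170
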