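import Vale.Agent.P170.UB2.Basic

namespace Vale.Agent.P170

open Finset

/-- truncated exponential series -/
noncomputable def texp (R : ℕ) (t : ℝ) : ℝ := ∑ j ∈ range (R + 1), t ^ j / (j.factorial : ℝ)

end Vale.Agent.P170
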